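import Vale.Agent.P287.R2.H248.Pert

/-!
P287, row (i) of the line theorem: in the pencil `F - t ℓ ^ 3` of a smooth `F` only finitely many
members are not smooth.
-/

namespace Vale.Agent.P287.R2.H697

open MvPolynomial Finset Vale.Agent.P287.R2.H248

/-- Homogeneous polynomials as combinations of the monomials of their degree. -/
lemma eval_hom {D : ℕ} {p : MvPolynomial (Fin 4) ℂ} (hp : p.IsHomogeneous D) (v : Fin 4 → ℂ) :
    eval v p = ∑ d : finsuppAntidiag (univ : Finset (Fin 4)) D,
      coeff d.1 p * ∏ i, v i ^ (d.1 i) := by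
  rw [eval_eq', Finset.sum_coe_sort (finsuppAntidiag (univ : Finset (Fin 4)) D)
    (fun d => coeff d p * ∏ i, v i ^ (d i))]
  apply Finset.sum_subset
  · intro d hd
    rw [mem_finsuppAntidiag]
    refine ⟨?_, subset_univ _⟩
    have h1 := hp (mem_support_iff.mp hd)
    rw [← h1, Finsupp.weight_apply, Finsupp.sum_fintype _ _ (by simp)]
    simp
  · intro d _ hd
    rw [notMem_support_iff.mp hd, zero_mul]

lemma eval_smul_hom {D : ℕ} {p : MvPolynomial (Fin 4) ℂ} (hp : p.IsHomogeneous D) (r : ℂ)
    (v : Fin 4 → ℂ) : eval (r • v) p = r ^ D * eval v p := by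
  rw [eval_hom hp, eval_hom hp, Finset.mul_sum]
  apply Finset.sum_congr rfl
  intro d _
  have hd := (mem_finsuppAntidiag.mp d.2).1
  have h1 : ∏ i, (r • v) i ^ (d.1 i) = r ^ D * ∏ i, v i ^ (d.1 i) := by
    simp only [Pi.smul_apply, smul_eq_mul, mul_pow]
    rw [Finset.prod_mul_distrib, Finset.prod_pow_eq_pow_sum]
    rw [show ∑ i, d.1 i = D from hd]
  rw [h1]
  ring

/-- The homogeneous part of an identity along all multiples of a point. -/
lemma hom_part (u : MvPolynomial (Fin 4) ℂ) (v : Fin 4 → ℂ) (a : ℂ) (N : ℕ)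
    (h : ∀ r : ℂ, r ^ N * a = eval (r • v) u) :
    a = eval v (homogeneousComponent N u) := by
  set P : Polynomial ℂ := ∑ d ∈ range (u.totalDegree + 1),
    Polynomial.C (eval v (homogeneousComponent d u)) * Polynomial.X ^ d with hP
  have h1 : P = Polynomial.C a * Polynomial.X ^ N := by
    apply Polynomial.funext
    intro r
    have h2 := h r
    rw [← sum_homogeneousComponent u, map_sum] at h2
    rw [hP, Polynomial.eval_finsetSum]
    simp only [Polynomial.eval_mul, Polynomial.eval_C, Polynomial.eval_pow, Polynomial.eval_X]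
    rw [mul_comm a, h2]
    apply Finset.sum_congr rfl
    intro d _
    rw [eval_smul_hom (homogeneousComponent_isHomogeneous d u), mul_comm]
  have h3 : P.coeff N = a := by
    rw [h1, Polynomial.coeff_C_mul_X_pow, if_pos rfl]
  rw [← h3, hP, Polynomial.finsetSum_coeff]
  simp only [Polynomial.coeff_C_mul_X_pow]
  rw [Finset.sum_ite_eq]
  split_ifs with h4
  · rfl
  · rw [homogeneousComponent_eq_zero]
    · simp
    · rw [mem_range] at h4
      omega

/-- Coordinates of a linear form. -/
lemma lin_sum (f : (Fin 4 → ℂ) →ₗ[ℂ] ℂ) (v : Fin 4 → ℂ) :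
    f v = ∑ i, v i * f (Pi.single i 1) := by
  rw [LinearMap.pi_apply_eq_sum_univ f v]
  apply Finset.sum_congr rfl
  intro i _
  have : (Pi.single i 1 : Fin 4 → ℂ) = fun j => if i = j then 1 else 0 := by
    funext j
    rw [Pi.single_apply]
    simp [eq_comm]
  rw [this, smul_eq_mul]

/-- The quadrics of the cubic. -/
noncomputable def quad (S : Tri (Fin 4 → ℂ)) (w : Fin 4 → ℂ) : MvPolynomial (Fin 4) ℂ :=
  ∑ a, ∑ b, C (S.T (Pi.single a 1) (Pi.single b 1) w) * (X a * X b)

lemma eval_quad (S : Tri (Fin 4 → ℂ)) (w v : Fin 4 → ℂ) : eval v (quad S w) = S.T v v w := by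
  have h1 : S.T v v w = ∑ a, v a * S.T (Pi.single a 1) v w := by
    have := lin_sum ((LinearMap.applyₗ w).comp ((LinearMap.applyₗ v).comp S.T)) v
    simpa using this
  have h2 : ∀ a, S.T (Pi.single a 1) v w =
      ∑ b, v b * S.T (Pi.single a 1) (Pi.single b 1) w := by
    intro a
    have := lin_sum ((LinearMap.applyₗ w).comp (S.T (Pi.single a 1))) v
    simpa using this
  rw [h1, quad, map_sum]
  apply Finset.sum_congr rfl
  intro a _
  rw [h2, map_sum, Finset.mul_sum]
  apply Finset.sum_congr rfl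
  intro b _
  simp only [map_mul, eval_C, eval_X]
  ring

/-- The linear form as a polynomial. -/
noncomputable def lin (l : (Fin 4 → ℂ) →ₗ[ℂ] ℂ) : MvPolynomial (Fin 4) ℂ :=
  ∑ a, C (l (Pi.single a 1)) * X a

lemma eval_lin (l : (Fin 4 → ℂ) →ₗ[ℂ] ℂ) (v : Fin 4 → ℂ) : eval v (lin l) = l v := by
  rw [lin_sum l v, lin, map_sum]
  apply Finset.sum_congr rfl
  intro b _
  simp only [map_mul, eval_C, eval_X]
  ring

/-- Nullstellensatz: the powers of the variables lie in the ideal of the quadrics. -/
lemma exists_pow {S : Tri (Fin 4 → ℂ)} (hS : S.Smooth) (j : Fin 4) :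
    ∃ N : ℕ, (X j : MvPolynomial (Fin 4) ℂ) ^ N ∈
      Ideal.span (Set.range fun i : Fin 4 => quad S (Pi.single i 1)) := by
  set I := Ideal.span (Set.range fun i : Fin 4 => quad S (Pi.single i 1)) with hI
  have h1 : (X j : MvPolynomial (Fin 4) ℂ) ∈ vanishingIdeal ℂ (zeroLocus ℂ I) := by
    rw [mem_vanishingIdeal_iff]
    intro x hx
    rw [mem_zeroLocus_iff] at hx
    have h2 : x = 0 := by
      apply hS
      intro w
      rw [lin_sum (S.T x x) w]
      apply Finset.sum_eq_zero
      intro i _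
      have h3 := hx (quad S (Pi.single i 1)) (Ideal.subset_span ⟨i, rfl⟩)
      have h4 : aeval x (quad S (Pi.single i 1)) = eval x (quad S (Pi.single i 1)) := by
        rfl
      rw [h4, eval_quad] at h3
      rw [h3, mul_zero]
    rw [aeval_X, h2]
    rfl
  rw [vanishingIdeal_zeroLocus_eq_radical] at h1
  exact h1

/-- The relation at the singular points of the members of the pencil. -/
lemma exists_rel {S : Tri (Fin 4 → ℂ)} (hS : S.Smooth) (l : (Fin 4 → ℂ) →ₗ[ℂ] ℂ) :
    ∃ N : ℕ, ∀ j : Fin 4, ∃ u : MvPolynomial (Fin 4) ℂ, u.IsHomogeneous N ∧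
      ∀ (t : ℂ) (v : Fin 4 → ℂ), (∀ w, (S.pert l t).T v v w = 0) → v j ^ N = t * eval v u := by
  choose n hn using fun j => exists_pow hS j
  refine ⟨∑ j, n j, fun j => ?_⟩
  have h1 : (X j : MvPolynomial (Fin 4) ℂ) ^ (∑ j, n j) ∈
      Ideal.span (Set.range fun i : Fin 4 => quad S (Pi.single i 1)) := by
    rw [← Nat.sub_add_cancel (Finset.single_le_sum (f := n) (fun _ _ => Nat.zero_le _)
      (mem_univ j)), pow_add]
    exact Ideal.mul_mem_left _ _ (hn j)
  obtain ⟨g, hg⟩ := Ideal.mem_span_range_iff_exists_fun.mp h1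
  set N := ∑ j, n j with hN
  refine ⟨homogeneousComponent N (∑ i, g i * (C (l (Pi.single i 1)) * (lin l * lin l))),
    homogeneousComponent_isHomogeneous _ _, ?_⟩
  intro t v hv
  have hv' : ∀ w, S.T v v w = t * (l v * (l v * l w)) := by
    intro w
    have := hv w
    rw [Tri.pert_T] at this
    linear_combination this
  have key : ∀ r : ℂ, r ^ N * v j ^ N = eval (r • v)
      (C t * (∑ i, g i * (C (l (Pi.single i 1)) * (lin l * lin l)))) := by
    intro r
    have h2 := congrArg (eval (r • v)) hg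
    rw [map_sum, map_pow, eval_X] at h2
    rw [← mul_pow, show r * v j = (r • v) j from rfl, ← h2, map_mul, eval_C, map_sum,
      Finset.mul_sum]
    apply Finset.sum_congr rfl
    intro i _
    simp only [map_mul, eval_C]
    rw [eval_quad, eval_lin]
    simp only [map_smul, LinearMap.smul_apply, smul_eq_mul]
    rw [hv']
    ring
  have h3 := hom_part _ v _ N key
  rw [homogeneousComponent_C_mul, map_mul, eval_C] at h3
  exact h3

/-- Only finitely many members of the pencil are not smooth. -/
theorem finite_bad {S : Tri (Fin 4 → ℂ)} (hS : S.Smooth) (l : (Fin 4 → ℂ) →ₗ[ℂ] ℂ) :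
    {t : ℂ | ¬ (S.pert l t).Smooth}.Finite := by
  obtain ⟨N, hN⟩ := exists_rel hS l
  choose u hu hrel using hN
  set D := 4 * N with hD
  let ι := finsuppAntidiag (univ : Finset (Fin 4)) D
  have hex : ∀ m : ι, ∃ j : Fin 4, N ≤ m.1 j := by
    intro m
    by_contra hc
    push Not at hc
    have h1 := (mem_finsuppAntidiag.mp m.2).1
    have h2 : ∑ i, m.1 i = D := h1
    rw [Fin.sum_univ_four] at h2
    have := hc 0
    have := hc 1
    have := hc 2
    have := hc 3
    omega
  choose jj hjj using hex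
  let p : ι → MvPolynomial (Fin 4) ℂ := fun m =>
    monomial (m.1 - Finsupp.single (jj m) N) 1 * u (jj m)
  have hsum : ∀ m : ι, (m.1 - Finsupp.single (jj m) N) + Finsupp.single (jj m) N = m.1 := by
    intro m
    apply tsub_add_cancel_of_le
    rw [Finsupp.single_le_iff]
    exact hjj m
  have hp : ∀ m : ι, (p m).IsHomogeneous D := by
    intro m
    have h1 : (monomial (m.1 - Finsupp.single (jj m) N) (1 : ℂ)).IsHomogeneous (D - N) := by
      apply isHomogeneous_monomial
      have h2 := congrArg Finsupp.degree (hsum m)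
      rw [map_add, Finsupp.degree_single] at h2
      have h3 : Finsupp.degree m.1 = D := by
        rw [Finsupp.degree_eq_sum]
        exact (mem_finsuppAntidiag.mp m.2).1
      omega
    have h2 := h1.mul (hu (jj m))
    have h3 : D - N + N = D := by omega
    rw [h3] at h2
    exact h2
  let M : Matrix ι ι ℂ := fun m m' => coeff m'.1 (p m)
  have hfin : {μ : ℂ | Module.End.HasEigenvalue (Matrix.toLin' M : Module.End ℂ (ι → ℂ)) μ}.Finite :=
    Module.End.finite_hasEigenvalue _
  apply (hfin.image (fun μ => μ⁻¹)).subset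
  intro t ht
  have ht' : ∃ v : Fin 4 → ℂ, v ≠ 0 ∧ ∀ w, (S.pert l t).T v v w = 0 := by
    by_contra hc
    push Not at hc
    apply ht
    intro v hv
    by_contra h0
    obtain ⟨w, hw⟩ := hc v h0
    exact hw (hv w)
  obtain ⟨v, hv0, hv⟩ := ht'
  let z : ι → ℂ := fun m => ∏ i, v i ^ (m.1 i)
  have hz : ∀ m, z m = t * (M.mulVec z) m := by
    intro m
    have h1 : M.mulVec z m = eval v (p m) := by
      rw [eval_hom (hp m) v]
      rfl
    have h2 : z m = eval v (monomial (m.1 - Finsupp.single (jj m) N) (1 : ℂ)) * v (jj m) ^ N := by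
      have h3 : eval v (monomial m.1 (1 : ℂ)) = z m := by
        rw [eval_monomial, one_mul, Finsupp.prod_fintype _ _ (by simp)]
      rw [← h3]
      conv_lhs => rw [← hsum m]
      rw [monomial_add_single, map_mul, map_pow, eval_X]
    rw [h1, h2, hrel (jj m) t v hv, map_mul]
    ring
  have hz0 : z ≠ 0 := by
    have h1 : ∃ j, v j ≠ 0 := by
      by_contra hc
      push Not at hc
      exact hv0 (funext hc)
    obtain ⟨j, hj⟩ := h1
    intro h2
    have h3 : (Finsupp.single j D) ∈ finsuppAntidiag (univ : Finset (Fin 4)) D := by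
      rw [mem_finsuppAntidiag]
      refine ⟨?_, subset_univ _⟩
      change ∑ i, (Finsupp.single j D) i = D
      rw [← Finsupp.degree_eq_sum, Finsupp.degree_single]
    have h4 := congrFun h2 ⟨_, h3⟩
    have h5 : z ⟨_, h3⟩ = v j ^ D := by
      change ∏ i, v i ^ ((Finsupp.single j D) i) = _
      rw [Finset.prod_eq_single j]
      · simp
      · intro b _ hb
        rw [Finsupp.single_eq_of_ne hb]
        simp
      · simp
    rw [h5] at h4
    exact pow_ne_zero D hj h4
  have ht0 : t ≠ 0 := by
    intro h0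
    apply hz0
    funext m
    rw [hz m, h0, zero_mul]
    rfl
  refine ⟨t⁻¹, ?_, inv_inv t⟩
  apply Module.End.hasEigenvalue_of_hasEigenvector (x := z)
  rw [Module.End.hasEigenvector_iff]
  refine ⟨?_, hz0⟩
  rw [Module.End.mem_eigenspace_iff, Matrix.toLin'_apply]
  funext m
  rw [Pi.smul_apply, smul_eq_mul, hz m, ← mul_assoc, inv_mul_cancel₀ ht0, one_mul]

end Vale.Agent.P287.R2.H697
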