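import Vale.Agent.P287.R2.H697.Through
import Vale.Agent.P287.R2.H248.Polar

/-!
P287: a smooth cubic fourfold with an Eckardt point and at least 28 planes contains two disjoint
planes.
-/

namespace Vale.Agent.P287.R2.H697

open MvPolynomial Vale.Agent.P287.R2.H248

theorem eckardt_many {F : MvPolynomial (Fin 6) ℂ} (hF : IsCubicFourfold F) {p : A6}
    (hp : IsEckardt F p) (s : Finset (Submodule ℂ A6)) (hs : 28 ≤ s.card)
    (hsF : ∀ P ∈ s, IsPlaneIn F P) :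
    ∃ P Q : Submodule ℂ A6, IsPlaneIn F P ∧ IsPlaneIn F Q ∧ Disjoint P Q := by
  obtain ⟨P, Q, hP, hQ, hd⟩ := eckardt_many_tri (pol_smooth hF) (by simp) (pol_eckardt hF.1 hp) s hs
    (fun P hP => ⟨(hsF P hP).1, (pol_iso hF.1).mpr (hsF P hP).2⟩)
  exact ⟨P, Q, ⟨hP.1, (pol_iso hF.1).mp hP.2⟩, ⟨hQ.1, (pol_iso hF.1).mp hQ.2⟩, hd⟩

/-- At most 27 planes of a smooth cubic fourfold pass through an Eckardt point. -/
theorem eckardt_card_le {F : MvPolynomial (Fin 6) ℂ} (hF : IsCubicFourfold F) {p : A6}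
    (hp : IsEckardt F p) (s : Finset (Submodule ℂ A6))
    (hsF : ∀ P ∈ s, IsPlaneIn F P ∧ p ∈ P) : s.card ≤ 27 :=
  card_planes_through (pol_smooth hF) (by simp) (pol_eckardt hF.1 hp) s
    (fun P hP => ⟨(hsF P hP).1.1, (pol_iso hF.1).mpr (hsF P hP).1.2, (hsF P hP).2⟩)

end Vale.Agent.P287.R2.H697
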