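import Vale.Agent.P287.R2.H248.Surface

/-!
P287: a line on a smooth cubic surface lies in at most five planes that contain another line.
Part 1: the discriminant of the pencil.
-/

namespace Vale.Agent.P287.R2.H697

open Vale.Agent.P287.R2.H248 Polynomial

/-- Five roots of the discriminant and a vanishing first coefficient: the second one vanishes. -/
lemma coeff_of_roots {a0 a1 b0 b1 c0 c1 d0 d1 d2 e0 e1 e2 f0 f1 f2 f3 : ℂ} (W : Finset ℂ)
    (hW : 5 ≤ W.card) (h5' : dt a1 b1 c1 d2 e2 f3 = 0)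
    (h : ∀ w ∈ W, dt (a0 + w * a1) (b0 + w * b1) (c0 + w * c1) (d0 + w * d1 + w ^ 2 * d2)
      (e0 + w * e1 + w ^ 2 * e2) (f0 + w * f1 + w ^ 2 * f2 + w ^ 3 * f3) = 0) :
    8 * (a1 * c1 - b1 ^ 2) * f2 + 8 * (a0 * c1 + a1 * c0 - 2 * b0 * b1) * f3
      - 6 * (a0 * e2 ^ 2 + 2 * a1 * e1 * e2) + 12 * (b0 * d2 * e2 + b1 * d1 * e2 + b1 * d2 * e1)
      - 6 * (c0 * d2 ^ 2 + 2 * c1 * d1 * d2) = 0 := by
  set A : ℂ[X] := C a0 + X * C a1 with hA
  set B : ℂ[X] := C b0 + X * C b1 with hB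
  set C' : ℂ[X] := C c0 + X * C c1 with hC
  set D : ℂ[X] := C d0 + X * C d1 + X ^ 2 * C d2 with hD
  set E : ℂ[X] := C e0 + X * C e1 + X ^ 2 * C e2 with hE
  set F : ℂ[X] := C f0 + X * C f1 + X ^ 2 * C f2 + X ^ 3 * C f3 with hF
  set P : ℂ[X] := C 8 * (A * C' - B ^ 2) * F - C 6 * A * E ^ 2 + C 12 * B * D * E
    - C 6 * C' * D ^ 2 with hP
  have hev : ∀ w : ℂ, P.eval w = dt (a0 + w * a1) (b0 + w * b1) (c0 + w * c1)
      (d0 + w * d1 + w ^ 2 * d2) (e0 + w * e1 + w ^ 2 * e2)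
      (f0 + w * f1 + w ^ 2 * f2 + w ^ 3 * f3) := by
    intro w
    simp only [hP, A, B, C', D, E, F, dt, eval_sub, eval_add, eval_mul, eval_pow, eval_C, eval_X]
  have hdeg : P.natDegree ≤ 5 := by
    rw [hP, hA, hB, hC, hD, hE, hF]
    compute_degree
  have hsum : ∀ w : ℂ, P.eval w = P.coeff 0 + P.coeff 1 * w + P.coeff 2 * w ^ 2
      + P.coeff 3 * w ^ 3 + P.coeff 4 * w ^ 4 + P.coeff 5 * w ^ 5 := by
    intro w
    conv_lhs => rw [Polynomial.eval_eq_sum_range' (n := 6) (by omega)]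
    simp only [Finset.sum_range_succ, Finset.sum_range_zero]
    ring
  have k5 : P.coeff 5 = 0 := by
    have h0 := (hev 0).symm.trans (hsum 0)
    have h1 := (hev 1).symm.trans (hsum 1)
    have h2 := (hev 2).symm.trans (hsum 2)
    have h3 := (hev 3).symm.trans (hsum 3)
    have h4 := (hev 4).symm.trans (hsum 4)
    have h5 := (hev 5).symm.trans (hsum 5)
    clear hev hsum hdeg h
    clear_value P
    unfold dt at *
    linear_combination (-1 / 120 : ℂ) * (h5 - 5 * h4 + 10 * h3 - 10 * h2 + 5 * h1 - h0) + h5'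
  have hP0 : P = 0 := by
    apply Polynomial.eq_zero_of_natDegree_lt_card_of_eval_eq_zero' P W
    · intro w hw
      rw [hev w]
      exact h w hw
    · have : P.natDegree ≠ 5 := by
        intro h6
        have h7 : P ≠ 0 := by
          intro h8
          rw [h8, natDegree_zero] at h6
          omega
        apply h7
        rw [← leadingCoeff_eq_zero, leadingCoeff, h6]
        exact k5
      omega
  have hz : ∀ w : ℂ, dt (a0 + w * a1) (b0 + w * b1) (c0 + w * c1)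
      (d0 + w * d1 + w ^ 2 * d2) (e0 + w * e1 + w ^ 2 * e2)
      (f0 + w * f1 + w ^ 2 * f2 + w ^ 3 * f3) = 0 := by
    intro w
    rw [← hev w, hP0, eval_zero]
  have h0 := hz 0
  have h1 := hz 1
  have h2 := hz 2
  have h3 := hz 3
  have h4 := hz 4
  clear hz hP0 k5 hsum hev hdeg h
  clear_value P
  unfold dt at *
  linear_combination (1 / 24 : ℂ) * (h4 - 4 * h3 + 6 * h2 - 4 * h1 + h0) - 10 * h5'

end Vale.Agent.P287.R2.H697
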