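import Vale.Agent.P287.R2.H697.Lines27a

/-!
P287: a line on a smooth cubic surface lies in at most five planes that contain another line.
Part 2: smoothness and the two leading coefficients (after `exists_deg` of helper248), and the
discriminant of a plane that contains a second line.
-/

namespace Vale.Agent.P287.R2.H697

open Module Submodule Vale.Agent.P287.R2.H248 Vale.Agent.P287.R2.H248.Tri

variable {V : Type*} [AddCommGroup V] [Module ℂ V] {S : Tri V}

/-- The two leading coefficients of the discriminant cannot vanish together. -/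
theorem false_of_pairs [FiniteDimensional ℂ V] (hS : S.Smooth) (hV : finrank ℂ V = 4)
    {U : Submodule ℂ V} (hU : finrank ℂ U = 2) (hI : S.Iso U) {q e : V} (hq : q ∉ U)
    (he : e ∉ U ⊔ span ℂ {q})
    (hpair : ∀ e1 e2 q' : V, e1 ≠ 0 → e2 ∉ span ℂ {e1} → span ℂ {e1, e2} = U →
      q' ∈ U ⊔ span ℂ {q} → q' ∉ U →
      dt (S.T e1 e1 q') (S.T e1 e2 q') (S.T e2 e2 q') (S.T e1 q' q') (S.T e2 q' q')
        (S.T q' q' q') = 0 ∧
      8 * (S.T e1 e1 q' * S.T e2 e2 q' - S.T e1 e2 q' ^ 2) * (3 * S.T e q' q')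
      + 8 * (S.T e1 e1 e * S.T e2 e2 q' + S.T e1 e1 q' * S.T e2 e2 e
        - 2 * S.T e1 e2 e * S.T e1 e2 q') * S.T q' q' q'
      - 6 * (S.T e1 e1 e * S.T e2 q' q' ^ 2 + 2 * S.T e1 e1 q' * (2 * S.T e2 e q') * S.T e2 q' q')
      + 12 * (S.T e1 e2 e * S.T e1 q' q' * S.T e2 q' q'
        + S.T e1 e2 q' * (2 * S.T e1 e q') * S.T e2 q' q'
        + S.T e1 e2 q' * S.T e1 q' q' * (2 * S.T e2 e q'))
      - 6 * (S.T e2 e2 e * S.T e1 q' q' ^ 2
        + 2 * S.T e2 e2 q' * (2 * S.T e1 e q') * S.T e1 q' q') = 0) : False := by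
  have hqm : q ∈ U ⊔ span ℂ {q} := mem_sup_right (mem_span_singleton_self q)
  -- a basis of `U`
  obtain ⟨e1, he1U, he10⟩ : ∃ e1 ∈ U, e1 ≠ 0 := by
    have : U ≠ ⊥ := by
      rintro rfl
      rw [finrank_bot] at hU
      omega
    exact U.ne_bot_iff.mp this
  obtain ⟨e2, he2U, he21, hspan⟩ := exists_pair hU he1U he10
  obtain ⟨k5, -⟩ := hpair e1 e2 q he10 he21 hspan hqm hq
  obtain ⟨x, y, t, hne, k1, k2, k3⟩ := kernel_of_dt k5
  by_cases ht : t = 0
  · -- the singular point of the conic lies on the line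
    subst ht
    set u := x • e1 + y • e2 with hu
    have huU : u ∈ U := U.add_mem (U.smul_mem x he1U) (U.smul_mem y he2U)
    have hu0 : u ≠ 0 := by
      intro hu0
      have hy : y = 0 := by
        by_contra hy
        apply he21
        rw [mem_span_singleton]
        refine ⟨-(y⁻¹ * x), ?_⟩
        have : y • e2 = -(x • e1) := by
          rw [eq_neg_iff_add_eq_zero, add_comm]
          exact hu0
        calc (-(y⁻¹ * x)) • e1 = y⁻¹ • (-(x • e1)) := by module
          _ = y⁻¹ • (y • e2) := by rw [this]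
          _ = e2 := by rw [smul_smul, inv_mul_cancel₀ hy, one_smul]
      have hx : x = 0 := by
        rw [hu, hy, zero_smul, add_zero] at hu0
        exact (smul_eq_zero.mp hu0).resolve_right he10
      rcases hne with hne | hne | hne
      · exact hne hx
      · exact hne hy
      · exact hne rfl
    have huU' : ∀ v ∈ U, S.T u v q = 0 := by
      intro v hv
      rw [← hspan] at hv
      obtain ⟨r, s, rfl⟩ := mem_span_pair.mp hv
      rw [hu]
      simp only [map_add, map_smul, LinearMap.add_apply, LinearMap.smul_apply, smul_eq_mul]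
      rw [S.s12 e2 e1 q]
      linear_combination (r / 2) * k1 + (s / 2) * k2
    have hqq : S.T u q q = 0 := by
      rw [hu]
      simp only [map_add, map_smul, LinearMap.add_apply, LinearMap.smul_apply, smul_eq_mul]
      linear_combination (1 / 3 : ℂ) * k3
    obtain ⟨f, hfU, hfu, hspan'⟩ := exists_pair hU huU hu0
    obtain ⟨-, c4⟩ := hpair u f q hu0 hfu hspan' hqm hq
    rw [huU' u huU, huU' f hfU, hqq] at c4
    have hA3 : S.T u u e ≠ 0 := by
      intro h0
      exact hu0 (eq_zero_of_smooth hS hV hU hq he (fun v hv => hI.two huU hv) (huU' u huU) h0)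
    have hdet : 4 * S.T f f q * S.T q q q - 3 * S.T f q q ^ 2 = 0 := by
      have : S.T u u e * (4 * S.T f f q * S.T q q q - 3 * S.T f q q ^ 2) = 0 := by
        linear_combination (1 / 2 : ℂ) * c4
      exact (mul_eq_zero.mp this).resolve_left hA3
    obtain ⟨y1, t1, hyt, m1, m2⟩ : ∃ y1 t1 : ℂ, (y1 ≠ 0 ∨ t1 ≠ 0) ∧
        2 * S.T f f q * y1 + S.T f q q * t1 = 0 ∧ 3 * S.T f q q * y1 + 2 * S.T q q q * t1 = 0 := by
      by_cases h0 : S.T f f q = 0 ∧ S.T f q q = 0
      · refine ⟨1, 0, Or.inl one_ne_zero, ?_, ?_⟩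
        · rw [h0.1, h0.2]; ring
        · rw [h0.2]; ring
      · refine ⟨S.T f q q, -(2 * S.T f f q), ?_, ?_, ?_⟩
        · by_contra hcc
          push Not at hcc
          apply h0
          refine ⟨?_, hcc.1⟩
          have := hcc.2
          linear_combination (-1 / 2 : ℂ) * this
        · ring
        · linear_combination (-1 : ℂ) * hdet
    set v1 := y1 • f + t1 • q with hv1
    obtain ⟨s, r, hsr, hquad⟩ := quad_zero (S.T u u e) (S.T u v1 e) (S.T v1 v1 e)
    have hv : s • u + r • v1 = 0 := by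
      apply eq_zero_of_smooth hS hV hU hq he
      · intro w hw
        rw [← hspan'] at hw
        obtain ⟨a, b, rfl⟩ := mem_span_pair.mp hw
        rw [S.sq_add, hv1]
        have z1 : S.T u u u = 0 := hI u huU
        have z2 : S.T u u f = 0 := hI.two huU hfU
        have z3 : S.T u f u = 0 := hI.three huU hfU huU
        have z4 : S.T u f f = 0 := hI.three huU hfU hfU
        have z5 : S.T u q u = 0 := by rw [S.s23]; exact huU' u huU
        have z6 : S.T u q f = 0 := by rw [S.s23]; exact huU' f hfU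
        have z7 : S.T f f u = 0 := hI.three hfU hfU huU
        have z8 : S.T f f f = 0 := hI f hfU
        have z9 : S.T f q u = 0 := by rw [S.cyc, S.cyc]; exact huU' f hfU
        have z10 : S.T q f u = 0 := by rw [S.s12]; exact z9
        have z11 : S.T q q u = 0 := by rw [← S.cyc]; exact hqq
        have z12 : S.T q f f = S.T f f q := by rw [S.cyc]
        have z13 : S.T f q f = S.T f f q := by rw [S.s23]
        have z14 : S.T q q f = S.T f q q := by rw [← S.cyc]
        simp only [map_add, map_smul, LinearMap.add_apply, LinearMap.smul_apply, smul_eq_mul,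
          z1, z2, z3, z4, z5, z6, z7, z8, z9, z10, z11, z12, z13, z14]
        linear_combination (r ^ 2 * b * t1) * m1
      · rw [S.sq_add, hv1]
        have z1 : S.T u u q = 0 := huU' u huU
        have z2 : S.T u f q = 0 := huU' f hfU
        have z3 : S.T q f q = S.T f q q := by rw [S.s12]
        simp only [map_add, map_smul, LinearMap.add_apply, LinearMap.smul_apply, smul_eq_mul,
          z1, z2, z3, hqq]
        linear_combination (r ^ 2 * y1 / 2) * m1 + (r ^ 2 * t1 / 2) * m2
      · rw [S.sq_add]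
        exact hquad
    -- `u` and `v1` are independent
    have hr : r = 0 := by
      by_contra hr
      have hv1u : v1 ∈ span ℂ {u} := by
        rw [mem_span_singleton]
        refine ⟨-(r⁻¹ * s), ?_⟩
        have : r • v1 = -(s • u) := by
          rw [eq_neg_iff_add_eq_zero, add_comm]
          exact hv
        calc (-(r⁻¹ * s)) • u = r⁻¹ • (-(s • u)) := by module
          _ = r⁻¹ • (r • v1) := by rw [this]
          _ = v1 := by rw [smul_smul, inv_mul_cancel₀ hr, one_smul]
      have ht1 : t1 = 0 := by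
        by_contra ht1
        apply hq
        have h3 : t1 • q ∈ U := by
          have : t1 • q = v1 - y1 • f := by rw [hv1]; abel
          rw [this]
          refine U.sub_mem ?_ (U.smul_mem _ hfU)
          exact (span_le.mpr (Set.singleton_subset_iff.mpr huU)) hv1u
        exact (U.smul_mem_iff ht1).mp h3
      have hy1 : y1 ≠ 0 := by
        rcases hyt with h | h
        · exact h
        · exact absurd ht1 h
      apply hfu
      rw [hv1, ht1, zero_smul, add_zero] at hv1u
      exact ((span ℂ {u}).smul_mem_iff hy1).mp hv1u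
    rw [hr, zero_smul, add_zero] at hv
    have hs : s ≠ 0 := by
      rcases hsr with h | h
      · exact h
      · exact absurd hr h
    exact hu0 ((smul_eq_zero.mp hv).resolve_left hs)
  · -- the singular point of the conic is not on the line
    set u0 := x • e1 + y • e2 with hu0
    have hu0U : u0 ∈ U := U.add_mem (U.smul_mem x he1U) (U.smul_mem y he2U)
    have hD : ∀ v ∈ U, 2 * S.T v u0 q + t * S.T v q q = 0 := by
      intro v hv
      rw [← hspan] at hv
      obtain ⟨r, s, rfl⟩ := mem_span_pair.mp hv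
      rw [hu0]
      simp only [map_add, map_smul, LinearMap.add_apply, LinearMap.smul_apply, smul_eq_mul]
      rw [S.s12 e2 e1 q]
      linear_combination r * k1 + s * k2
    have hF : 3 * S.T u0 q q + 2 * t * S.T q q q = 0 := by
      rw [hu0]
      simp only [map_add, map_smul, LinearMap.add_apply, LinearMap.smul_apply, smul_eq_mul]
      linear_combination k3
    have hti : t * t⁻¹ = 1 := mul_inv_cancel₀ ht
    set q' := q + t⁻¹ • u0 with hq'
    have hq'm : q' ∈ U ⊔ span ℂ {q} :=
      (U ⊔ span ℂ {q}).add_mem hqm (mem_sup_left (U.smul_mem _ hu0U))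
    have hq'U : q' ∉ U := by
      intro h
      apply hq
      have := U.sub_mem h (U.smul_mem t⁻¹ hu0U)
      rwa [hq', add_sub_cancel_right] at this
    have he' : e ∉ U ⊔ span ℂ {q'} := by
      intro h
      apply he
      have hle : U ⊔ span ℂ {q'} ≤ U ⊔ span ℂ {q} :=
        sup_le le_sup_left (span_le.mpr (Set.singleton_subset_iff.mpr hq'm))
      exact hle h
    have hD' : ∀ v ∈ U, S.T v q' q' = 0 := by
      intro v hv
      have h0 : S.T v u0 u0 = 0 := hI.three hv hu0U hu0U
      rw [hq']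
      simp only [map_add, map_smul, LinearMap.add_apply, LinearMap.smul_apply, smul_eq_mul, h0]
      rw [S.s23 v q u0]
      have := hD v hv
      linear_combination t⁻¹ * this - S.T v q q * hti
    have hF' : S.T q' q' q' = 0 := by
      have h1 := S.cube_add 1 t⁻¹ q u0
      rw [one_smul] at h1
      rw [hq', h1, hI u0 hu0U, ← S.cyc u0 q q, S.cyc q u0 u0]
      have h2 := hD u0 hu0U
      linear_combination (t⁻¹ / 2) * hF + (3 / 2) * t⁻¹ ^ 2 * h2
        - (S.T q q q + (3 / 2) * t⁻¹ * S.T u0 q q) * hti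
    obtain ⟨-, c4⟩ := hpair e1 e2 q' he10 he21 hspan hq'm hq'U
    rw [hD' e1 he1U, hD' e2 he2U, hF'] at c4
    have hE : S.T e q' q' ≠ 0 := by
      intro h0
      apply hq'U
      have : q' = 0 := by
        apply eq_zero_of_smooth hS hV hU hq'U he'
        · intro v hv
          rw [← S.cyc]
          exact hD' v hv
        · exact hF'
        · rw [← S.cyc]
          exact h0
      rw [this]
      exact U.zero_mem
    have hdet : S.T e1 e1 q' * S.T e2 e2 q' - S.T e1 e2 q' ^ 2 = 0 := by
      have : (S.T e1 e1 q' * S.T e2 e2 q' - S.T e1 e2 q' ^ 2) * S.T e q' q' = 0 := by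
        linear_combination (1 / 24 : ℂ) * c4
      exact (mul_eq_zero.mp this).resolve_right hE
    obtain ⟨x1, y1, hxy, m1, m2⟩ : ∃ x1 y1 : ℂ, (x1 ≠ 0 ∨ y1 ≠ 0) ∧
        x1 * S.T e1 e1 q' + y1 * S.T e1 e2 q' = 0 ∧
        x1 * S.T e1 e2 q' + y1 * S.T e2 e2 q' = 0 := by
      by_cases h0 : S.T e1 e1 q' = 0 ∧ S.T e1 e2 q' = 0
      · refine ⟨1, 0, Or.inl one_ne_zero, ?_, ?_⟩
        · rw [h0.1, h0.2]; ring
        · rw [h0.2]; ring
      · refine ⟨S.T e1 e2 q', -(S.T e1 e1 q'), ?_, ?_, ?_⟩
        · by_contra hcc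
          push Not at hcc
          apply h0
          refine ⟨?_, hcc.1⟩
          have := hcc.2
          linear_combination (-1 : ℂ) * this
        · ring
        · linear_combination (-1 : ℂ) * hdet
    set u1 := x1 • e1 + y1 • e2 with hu1
    have hu1U : u1 ∈ U := U.add_mem (U.smul_mem x1 he1U) (U.smul_mem y1 he2U)
    have hu10 : u1 ≠ 0 := by
      intro h0
      obtain ⟨a1, a2⟩ := pair_eq_zero he10 he21 h0
      rcases hxy with h | h
      · exact h a1
      · exact h a2
    have hu1U' : ∀ v ∈ U, S.T u1 v q' = 0 := by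
      intro v hv
      rw [← hspan] at hv
      obtain ⟨r, s, rfl⟩ := mem_span_pair.mp hv
      rw [hu1]
      simp only [map_add, map_smul, LinearMap.add_apply, LinearMap.smul_apply, smul_eq_mul]
      rw [S.s12 e2 e1 q']
      linear_combination r * m1 + s * m2
    obtain ⟨s, r, hsr, hquad⟩ := quad_zero (S.T u1 u1 e) (S.T u1 q' e) (S.T q' q' e)
    have hv : s • u1 + r • q' = 0 := by
      apply eq_zero_of_smooth hS hV hU hq'U he'
      · intro w hw
        rw [S.sq_add, hI.two hu1U hw, ← S.cyc w q' q', hD' w hw, S.s23 u1 q' w, hu1U' w hw]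
        ring
      · rw [S.sq_add, hF', hu1U' u1 hu1U, hD' u1 hu1U]
        ring
      · rw [S.sq_add]
        exact hquad
    have hr : r = 0 := by
      by_contra hr
      apply hq'U
      have h3 : r • q' ∈ U := by
        have : r • q' = -(s • u1) := by
          rw [eq_neg_iff_add_eq_zero, add_comm]
          exact hv
        rw [this]
        exact U.neg_mem (U.smul_mem _ hu1U)
      exact (U.smul_mem_iff hr).mp h3
    rw [hr, zero_smul, add_zero] at hv
    have hs : s ≠ 0 := by
      rcases hsr with h | h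
      · exact h
      · exact absurd hr h
    exact hu10 ((smul_eq_zero.mp hv).resolve_left hs)

/-- The discriminant of a plane through the line `U` that contains another line. -/
theorem dt_zero_of_line [FiniteDimensional ℂ V] {U L : Submodule ℂ V} (hU : finrank ℂ U = 2)
    (hI : S.Iso U) (hL : finrank ℂ L = 2) (hLI : S.Iso L) (hLU : L ≠ U) {p : V} (hp : p ∉ U)
    (hLp : L ≤ U ⊔ span ℂ {p}) {e1 e2 : V} (h1 : e1 ≠ 0) (h2 : e2 ∉ span ℂ {e1})
    (hspan : span ℂ {e1, e2} = U) :
    dt (S.T e1 e1 p) (S.T e1 e2 p) (S.T e2 e2 p) (S.T e1 p p) (S.T e2 p p) (S.T p p p) = 0 := by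
  -- a point of the intersection
  have hLU' : ¬ L ≤ U := fun h => hLU (Submodule.eq_of_le_of_finrank_eq h (by rw [hL, hU]))
  obtain ⟨x0, hx0L, hx0U⟩ := Set.not_subset.mp hLU'
  have hx0 := hLp hx0L
  obtain ⟨u', hu', z, hz, hx0e⟩ := mem_sup.mp hx0
  obtain ⟨c, rfl⟩ := mem_span_singleton.mp hz
  have hc : c ≠ 0 := by
    rintro rfl
    apply hx0U
    rw [← hx0e, zero_smul, add_zero]
    exact hu'
  set u := c⁻¹ • u' with hu
  have huU : u ∈ U := U.smul_mem _ hu'
  have hxL : p + u ∈ L := by
    have : p + u = c⁻¹ • x0 := by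
      rw [← hx0e, smul_add, smul_smul, inv_mul_cancel₀ hc, one_smul, hu, add_comm]
    rw [this]
    exact L.smul_mem _ hx0L
  have hinf : ∃ u0 ∈ U ⊓ L, u0 ≠ 0 := by
    have h3 := Submodule.finrank_sup_add_finrank_inf_eq U L
    have h4 : finrank ℂ ↥(U ⊔ L) ≤ 3 := by
      have := Submodule.finrank_mono (sup_le (le_sup_left : U ≤ U ⊔ span ℂ {p}) hLp)
      rw [finrank_sup_single hp, hU] at this
      exact this
    have h5 : U ⊓ L ≠ ⊥ := by
      intro h
      rw [h, finrank_bot, hU, hL] at h3
      omega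
    obtain ⟨b, hb, hb0⟩ := (Submodule.ne_bot_iff _).mp h5
    exact ⟨b, hb, hb0⟩
  obtain ⟨u0, ⟨hu0U, hu0L⟩, hu00⟩ := hinf
  have hu0' := hu0U
  have huU' := huU
  rw [SetLike.mem_coe, ← hspan] at hu0'
  rw [← hspan] at huU'
  obtain ⟨α, β, hαβ⟩ := mem_span_pair.mp hu0'
  obtain ⟨r, s, hrs⟩ := mem_span_pair.mp huU'
  have he1 : e1 ∈ U := by rw [← hspan]; exact subset_span (by simp)
  have he2 : e2 ∈ U := by rw [← hspan]; exact subset_span (by simp)
  -- the three relations
  have R1 := hLI.two hu0L hxL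
  have R2 := hLI.three hu0L hxL hxL
  have R3 := hLI _ hxL
  have q111 : S.T e1 e1 e1 = 0 := hI.three he1 he1 he1
  have q112 : S.T e1 e1 e2 = 0 := hI.three he1 he1 he2
  have q121 : S.T e1 e2 e1 = 0 := hI.three he1 he2 he1
  have q122 : S.T e1 e2 e2 = 0 := hI.three he1 he2 he2
  have q211 : S.T e2 e1 e1 = 0 := hI.three he2 he1 he1
  have q212 : S.T e2 e1 e2 = 0 := hI.three he2 he1 he2
  have q221 : S.T e2 e2 e1 = 0 := hI.three he2 he2 he1
  have q222 : S.T e2 e2 e2 = 0 := hI.three he2 he2 he2
  have s1 : S.T e2 e1 p = S.T e1 e2 p := S.s12 _ _ _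
  have s2 : S.T e1 p e1 = S.T e1 e1 p := S.s23 _ _ _
  have s3 : S.T e1 p e2 = S.T e1 e2 p := S.s23 _ _ _
  have s4 : S.T e2 p e1 = S.T e1 e2 p := by rw [S.s23, S.s12]
  have s5 : S.T e2 p e2 = S.T e2 e2 p := S.s23 _ _ _
  have s6 : S.T p e1 e1 = S.T e1 e1 p := by rw [S.s12, S.s23]
  have s7 : S.T p e1 e2 = S.T e1 e2 p := by rw [S.s12, S.s23]
  have s8 : S.T p e2 e1 = S.T e1 e2 p := by rw [S.s23, S.s12, S.s23]
  have s9 : S.T p e2 e2 = S.T e2 e2 p := by rw [S.s12, S.s23]
  have s10 : S.T p e1 p = S.T e1 p p := S.s12 _ _ _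
  have s11 : S.T p e2 p = S.T e2 p p := S.s12 _ _ _
  have s12 : S.T p p e1 = S.T e1 p p := by rw [S.s23, S.s12]
  have s13 : S.T p p e2 = S.T e2 p p := by rw [S.s23, S.s12]
  rw [← hαβ, ← hrs] at R1 R2
  rw [← hrs] at R3
  simp only [map_add, map_smul, LinearMap.add_apply, LinearMap.smul_apply, smul_eq_mul,
    q111, q112, q121, q122, q211, q212, q221, q222, s1, s2, s3, s4, s5, s6, s7, s8, s9, s10, s11,
    s12, s13] at R1 R2 R3
  have hab : α ≠ 0 ∨ β ≠ 0 := by
    by_contra hcon
    push Not at hcon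
    apply hu00
    rw [← hαβ, hcon.1, hcon.2, zero_smul, zero_smul, add_zero]
  generalize S.T e1 e1 p = A at *
  generalize S.T e1 e2 p = B at *
  generalize S.T e2 e2 p = C at *
  generalize S.T e1 p p = D at *
  generalize S.T e2 p p = E at *
  generalize S.T p p p = F at *
  obtain ⟨κ, hk1, hk2⟩ : ∃ κ : ℂ, D + 2 * (A * r + B * s) = κ * β ∧
      E + 2 * (B * r + C * s) = -(κ * α) := by
    by_cases hβ : β = 0
    · have hα : α ≠ 0 := by
        rcases hab with h | h
        · exact h
        · exact absurd hβ h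
      refine ⟨-(E + 2 * (B * r + C * s)) / α, ?_, ?_⟩
      · rw [hβ, mul_zero]
        have : α * (D + 2 * (A * r + B * s)) = 0 := by
          rw [hβ] at R2
          linear_combination R2
        exact (mul_eq_zero.mp this).resolve_left hα
      · field_simp
    · refine ⟨(D + 2 * (A * r + B * s)) / β, ?_, ?_⟩
      · field_simp
      · field_simp
        linear_combination R2
  have hD : D = κ * β - 2 * (A * r + B * s) := by linear_combination hk1
  have hE : E = -(κ * α) - 2 * (B * r + C * s) := by linear_combination hk2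
  unfold dt
  rw [hD, hE] at R3 ⊢
  linear_combination (-6 * κ ^ 2) * R1 + 8 * (A * C - B ^ 2) * R3

end Vale.Agent.P287.R2.H697
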