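import Vale.Agent.P287.R2.H697.Lines27b
import Vale.Agent.P287.R2.H622.Geo

/-!
P287: a line on a smooth cubic surface lies in at most five planes that contain another line.
-/

namespace Vale.Agent.P287.R2.H697

open Module Submodule Vale.Agent.P287.R2.H248 Vale.Agent.P287.R2.H248.Tri

variable {V : Type*} [AddCommGroup V] [Module ℂ V] {S : Tri V}

/-- `H` is a plane through the line `U` that contains another line of the surface. -/
def Split (S : Tri V) (U H : Submodule ℂ V) : Prop :=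
  finrank ℂ H = 3 ∧ U ≤ H ∧ ∃ L : Submodule ℂ V, finrank ℂ L = 2 ∧ S.Iso L ∧ L ≠ U ∧ L ≤ H

lemma sup_span_eq [FiniteDimensional ℂ V] {U H : Submodule ℂ V} (hU : finrank ℂ U = 2)
    (hH : finrank ℂ H = 3) (hUH : U ≤ H) {p : V} (hp : p ∈ H) (hpU : p ∉ U) :
    U ⊔ span ℂ {p} = H := by
  apply Submodule.eq_of_le_of_finrank_eq
  · exact sup_le hUH ((span_singleton_le_iff_mem _ _).mpr hp)
  · rw [finrank_sup_single hpU, hU, hH]

/-- At most five planes through a line contain another line. -/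
theorem split_le_five [FiniteDimensional ℂ V] (hS : S.Smooth) (hV : finrank ℂ V = 4)
    {U : Submodule ℂ V} (hU : finrank ℂ U = 2) (hI : S.Iso U) (s : Finset (Submodule ℂ V))
    (hs : ∀ H ∈ s, Split S U H) : s.card ≤ 5 := by
  classical
  by_contra hcard
  push Not at hcard
  obtain ⟨H0, hH0⟩ : s.Nonempty := Finset.card_pos.mp (by omega)
  obtain ⟨h03, h0U, L0, hL02, hL0I, hL0U, hL0H⟩ := hs H0 hH0
  have hc5 : 5 ≤ (s.erase H0).card := by
    rw [Finset.card_erase_of_mem hH0]
    omega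
  obtain ⟨q, hqH, hqU⟩ : ∃ q ∈ H0, q ∉ U := by
    by_contra hcon
    push Not at hcon
    have := Submodule.finrank_mono (show H0 ≤ U from hcon)
    omega
  have hH0q := sup_span_eq hU h03 h0U hqH hqU
  obtain ⟨e, he⟩ : ∃ e, e ∉ H0 := exists_not_mem (by omega)
  refine false_of_pairs hS hV hU hI hqU (e := e) (by rw [hH0q]; exact he) ?_
  intro e1 e2 q' h1 h2 hspan hq' hq'U
  rw [hH0q] at hq'
  have hH0q' := sup_span_eq hU h03 h0U hq' hq'U
  have hdt : dt (S.T e1 e1 q') (S.T e1 e2 q') (S.T e2 e2 q') (S.T e1 q' q') (S.T e2 q' q')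
        (S.T q' q' q') = 0 :=
    dt_zero_of_line hU hI hL02 hL0I hL0U hq'U (by rw [hH0q']; exact hL0H) h1 h2 hspan
  refine ⟨hdt, ?_⟩
  -- the parameters of the other planes
  have hw : ∀ H ∈ s.erase H0, ∃ w : ℂ, e + w • q' ∈ H ∧ e + w • q' ∉ U := by
    intro H hH
    obtain ⟨hne, hHs⟩ := Finset.mem_erase.mp hH
    obtain ⟨h3, hUH, -⟩ := hs H hHs
    have hqH' : q' ∉ H := by
      intro h
      apply hne
      rw [← hH0q', sup_span_eq hU h3 hUH h hq'U]
    have htop : H ⊔ span ℂ {q'} = ⊤ := by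
      apply Submodule.eq_top_of_finrank_eq
      rw [finrank_sup_single hqH', h3, hV]
    have hmem : e ∈ H ⊔ span ℂ {q'} := by rw [htop]; trivial
    obtain ⟨y, hy, z, hz, hyz⟩ := mem_sup.mp hmem
    obtain ⟨a, rfl⟩ := mem_span_singleton.mp hz
    refine ⟨-a, ?_, ?_⟩
    · have : e + -a • q' = y := by
        rw [← hyz]
        module
      rw [this]
      exact hy
    · intro h
      apply he
      have h4 : e = (e + -a • q') + a • q' := by module
      rw [h4]
      exact H0.add_mem (h0U h) (H0.smul_mem a hq')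
  choose! w hwH hwU using hw
  have hinj : Set.InjOn w (s.erase H0) := by
    intro H hH H' hH' heq
    have hHs := Finset.mem_of_mem_erase hH
    have hHs' := Finset.mem_of_mem_erase hH'
    have k1 := sup_span_eq hU (hs H hHs).1 (hs H hHs).2.1 (hwH H hH) (hwU H hH)
    have k2 := sup_span_eq hU (hs H' hHs').1 (hs H' hHs').2.1 (hwH H' hH') (hwU H' hH')
    rw [← k1, ← k2, heq]
  have exp1 : ∀ (w : ℂ) (a : V), S.T a (e + w • q') (e + w • q') =
      S.T a e e + w * (2 * S.T a e q') + w ^ 2 * S.T a q' q' := by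
    intro w a
    simp only [map_add, map_smul, LinearMap.add_apply, LinearMap.smul_apply, smul_eq_mul]
    rw [S.s23 a q' e]
    ring
  have exp2 : ∀ (w : ℂ) (a b : V), S.T a b (e + w • q') = S.T a b e + w * S.T a b q' := by
    intro w a b
    simp only [map_add, map_smul, smul_eq_mul]
  have exp3 : ∀ w : ℂ, S.T (e + w • q') (e + w • q') (e + w • q') =
      S.T e e e + w * (3 * S.T e e q') + w ^ 2 * (3 * S.T e q' q') + w ^ 3 * S.T q' q' q' := by
    intro w
    have := S.cube_add 1 w e q'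
    rw [one_smul] at this
    rw [this]
    ring
  refine coeff_of_roots (W := (s.erase H0).image w) (a0 := S.T e1 e1 e) (b0 := S.T e1 e2 e)
    (c0 := S.T e2 e2 e) (d0 := S.T e1 e e) (e0 := S.T e2 e e) (f0 := S.T e e e)
    (a1 := S.T e1 e1 q') (b1 := S.T e1 e2 q') (c1 := S.T e2 e2 q') (d1 := 2 * S.T e1 e q')
    (e1 := 2 * S.T e2 e q') (d2 := S.T e1 q' q') (e2 := S.T e2 q' q')
    (f1 := 3 * S.T e e q') (f2 := 3 * S.T e q' q') (f3 := S.T q' q' q') ?_ hdt ?_
  · rw [Finset.card_image_of_injOn hinj]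
    exact hc5
  · intro w0 hw0
    obtain ⟨H, hH, rfl⟩ := Finset.mem_image.mp hw0
    have hHs := Finset.mem_of_mem_erase hH
    obtain ⟨h3, hUH, L, hL2, hLI, hLU, hLH⟩ := hs H hHs
    have k1 := sup_span_eq hU h3 hUH (hwH H hH) (hwU H hH)
    have k2 := dt_zero_of_line hU hI hL2 hLI hLU (hwU H hH) (by rw [k1]; exact hLH) h1 h2 hspan
    rw [exp1, exp1, exp2, exp2, exp2, exp3] at k2
    exact k2

end Vale.Agent.P287.R2.H697
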