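import Vale.Agent.P287.R2.H697.Lines27c
import Vale.Agent.P287.R2.H248.Disjoint
import Vale.Agent.P287.R2.H248.Eckardt

/-!
P287: a smooth cubic surface over the complex numbers contains at most 27 lines.
-/

namespace Vale.Agent.P287.R2.H697

open Module Submodule Vale.Agent.P287.R2.H248 Vale.Agent.P287.R2.H248.Tri
open Vale.Agent.P287.R2.H622 (le_of_union finrank_inf_ker exists_functional cube_three)

variable {V : Type*} [AddCommGroup V] [Module ℂ V] {S : Tri V}

lemma eq_of_le_two [FiniteDimensional ℂ V] {L M : Submodule ℂ V} (hL : finrank ℂ L = 2)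
    (hM : finrank ℂ M = 2) (h : L ≤ M) : L = M :=
  Submodule.eq_of_le_of_finrank_eq h (by rw [hL, hM])

/-- Two lines of a plane section determine the third one. -/
theorem third_line [FiniteDimensional ℂ V] (hS : S.Smooth) (hV : finrank ℂ V = 4)
    {U L H : Submodule ℂ V} (hU : finrank ℂ U = 2) (hI : S.Iso U) (hL : finrank ℂ L = 2)
    (hLI : S.Iso L) (hne : L ≠ U) (hH : finrank ℂ H = 3) (hUH : U ≤ H) (hLH : L ≤ H) :
    ∃ R : Submodule ℂ V, finrank ℂ R = 2 ∧ S.Iso R ∧ R ≤ H ∧
      ∀ x ∈ H, S.T x x x = 0 → x ∈ U ∨ x ∈ L ∨ x ∈ R := by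
  have hUL : ¬ U ≤ L := fun h => hne (eq_of_le_two hU hL h).symm
  have hLU : ¬ L ≤ U := fun h => hne (eq_of_le_two hL hU h)
  obtain ⟨a, haU, haL⟩ := Set.not_subset.mp hUL
  obtain ⟨b, hbL, hbU⟩ := Set.not_subset.mp hLU
  obtain ⟨f, hfa, hfL⟩ := exists_functional haL
  obtain ⟨g, hgb, hgU⟩ := exists_functional hbU
  have hsup : U ⊔ L = H := by
    apply Submodule.eq_of_le_of_finrank_eq (sup_le hUH hLH)
    have h1 : finrank ℂ ↥(U ⊔ span ℂ {b}) ≤ finrank ℂ ↥(U ⊔ L) :=
      Submodule.finrank_mono (sup_le_sup_left ((span_singleton_le_iff_mem _ _).mpr hbL) U)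
    rw [finrank_sup_single hbU, hU] at h1
    have h2 := Submodule.finrank_mono (sup_le hUH hLH)
    omega
  have hinf : finrank ℂ ↥(U ⊓ L) = 1 := by
    have := Submodule.finrank_sup_add_finrank_inf_eq U L
    rw [hsup, hH, hU, hL] at this
    omega
  have hUa : U ⊓ L ⊔ span ℂ {a} = U := by
    apply Submodule.eq_of_le_of_finrank_eq
    · exact sup_le inf_le_left ((span_singleton_le_iff_mem _ _).mpr haU)
    · have haI : a ∉ U ⊓ L := fun h => haL h.2
      rw [finrank_sup_single haI, hinf, hU]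
  have hLb : U ⊓ L ⊔ span ℂ {b} = L := by
    apply Submodule.eq_of_le_of_finrank_eq
    · exact sup_le inf_le_right ((span_singleton_le_iff_mem _ _).mpr hbL)
    · have hbI : b ∉ U ⊓ L := fun h => hbU h.1
      rw [finrank_sup_single hbI, hinf, hL]
  -- coordinates in the plane
  have hdec : ∀ x ∈ H, ∃ z ∈ U ⊓ L, x = z + f x • a + g x • b := by
    intro x hx
    rw [← hsup] at hx
    obtain ⟨u, hu, l, hl, rfl⟩ := mem_sup.mp hx
    have hu' := hu
    rw [← hUa] at hu'
    obtain ⟨z1, hz1, y1, hy1, rfl⟩ := mem_sup.mp hu'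
    obtain ⟨s, rfl⟩ := mem_span_singleton.mp hy1
    have hl' := hl
    rw [← hLb] at hl'
    obtain ⟨z2, hz2, y2, hy2, rfl⟩ := mem_sup.mp hl'
    obtain ⟨r, rfl⟩ := mem_span_singleton.mp hy2
    refine ⟨z1 + z2, (U ⊓ L).add_mem hz1 hz2, ?_⟩
    have e1 : f (z1 + s • a + (z2 + r • b)) = s := by
      simp only [map_add, map_smul, smul_eq_mul]
      rw [hfL z1 hz1.2, hfL z2 hz2.2, hfL b hbL, hfa]
      ring
    have e2 : g (z1 + s • a + (z2 + r • b)) = r := by
      simp only [map_add, map_smul, smul_eq_mul]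
      rw [hgU z1 hz1.1, hgU z2 hz2.1, hgU a haU, hgb]
      ring
    rw [e1, e2]
    abel
  -- the third linear form
  set l : V →ₗ[ℂ] ℂ := (2 : ℂ) • ((LinearMap.applyₗ b).comp ((LinearMap.applyₗ a).comp S.T))
    - (S.T a a b) • f - (S.T a b b) • g with hl
  have hlx : ∀ x, l x = 2 * S.T x a b - S.T a a b * f x - S.T a b b * g x := by
    intro x
    simp [hl]
  have hF : ∀ x ∈ H, S.T x x x = 3 * f x * g x * l x := by
    intro x hx
    obtain ⟨z, hz, hxz⟩ := hdec x hx
    rw [hlx]
    generalize f x = s at *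
    generalize g x = r at *
    subst hxz
    rw [cube_three S z a b s r (hI.three hz.1 hz.1 hz.1) (hI.three hz.1 hz.1 haU)
      (hI.three hz.1 haU haU) (hI.three haU haU haU) (hLI.three hz.2 hz.2 hbL)
      (hLI.three hz.2 hbL hbL) (hLI.three hbL hbL hbL)]
    simp only [map_add, map_smul, LinearMap.add_apply, LinearMap.smul_apply, smul_eq_mul]
    rw [S.s12 b a b]
    ring
  have hlne : ∃ x ∈ H, l x ≠ 0 := by
    by_contra hcon
    push Not at hcon
    apply no_plane hS hV hH
    intro x hx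
    rw [hF x hx, hcon x hx, mul_zero]
  obtain ⟨y, hyH, hy⟩ := hlne
  refine ⟨H ⊓ LinearMap.ker l, ?_, ?_, inf_le_left, ?_⟩
  · have := finrank_inf_ker hyH hy
    omega
  · intro x hx
    rw [hF x hx.1, show l x = 0 from hx.2, mul_zero]
  · intro x hx h0
    rw [hF x hx] at h0
    obtain ⟨z, hz, hxz⟩ := hdec x hx
    rcases mul_eq_zero.mp h0 with h1 | h1
    · rcases mul_eq_zero.mp h1 with h2 | h2
      · right; left
        have h3 : f x = 0 := by
          rcases mul_eq_zero.mp h2 with h | h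
          · norm_num at h
          · exact h
        rw [hxz, h3, zero_smul, add_zero]
        exact L.add_mem hz.2 (L.smul_mem _ hbL)
      · left
        rw [hxz, h2, zero_smul, add_zero]
        exact U.add_mem hz.1 (U.smul_mem _ haU)
    · right; right
      exact ⟨hx, h1⟩

/-- A line of the surface meets at most ten others. -/
theorem meet_le_ten [FiniteDimensional ℂ V] (hS : S.Smooth) (hV : finrank ℂ V = 4)
    {U : Submodule ℂ V} (hU : finrank ℂ U = 2) (hI : S.Iso U) (s : Finset (Submodule ℂ V))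
    (hs : ∀ L ∈ s, finrank ℂ L = 2 ∧ S.Iso L ∧ L ≠ U ∧ L ⊓ U ≠ ⊥) : s.card ≤ 10 := by
  classical
  have hfr : ∀ L ∈ s, finrank ℂ ↥(L ⊔ U) = 3 := by
    intro L hL
    obtain ⟨h2, hLI, hne, hm⟩ := hs L hL
    have h1 := Submodule.finrank_sup_add_finrank_inf_eq L U
    rw [h2, hU] at h1
    have h3 : 0 < finrank ℂ ↥(L ⊓ U) := by
      rw [Nat.pos_iff_ne_zero]
      intro h
      exact hm (Submodule.finrank_eq_zero.mp h)
    have h4 : finrank ℂ ↥(L ⊓ U) ≠ 2 := by
      intro h4
      have h5 : L ⊓ U = L := Submodule.eq_of_le_of_finrank_eq inf_le_left (by rw [h4, h2])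
      exact hne (eq_of_le_two h2 hU (inf_eq_left.mp h5))
    have h5 := Submodule.finrank_mono (inf_le_left : L ⊓ U ≤ L)
    omega
  have h1 : (s.image (fun L => L ⊔ U)).card ≤ 5 := by
    apply split_le_five hS hV hU hI
    intro H hH
    obtain ⟨L, hL, rfl⟩ := Finset.mem_image.mp hH
    exact ⟨hfr L hL, le_sup_right, L, (hs L hL).1, (hs L hL).2.1, (hs L hL).2.2.1, le_sup_left⟩
  have h2 : s.card ≤ 2 * (s.image (fun L => L ⊔ U)).card := by
    apply Finset.card_le_mul_card_image_of_maps_to (fun L hL => Finset.mem_image_of_mem _ hL)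
    intro H hH
    obtain ⟨L, hL, hLH⟩ := Finset.mem_image.mp hH
    have hH3 : finrank ℂ H = 3 := by rw [← hLH]; exact hfr L hL
    obtain ⟨R, hR2, hRI, -, hall⟩ := third_line hS hV hU hI (hs L hL).1 (hs L hL).2.1
      (hs L hL).2.2.1 hH3 (by rw [← hLH]; exact le_sup_right) (by rw [← hLH]; exact le_sup_left)
    refine le_trans (Finset.card_le_card (t := {L, R}) ?_) Finset.card_le_two
    intro M hM
    obtain ⟨hMs, hMH⟩ := Finset.mem_filter.mp hM
    have h3 : M ≤ U ∨ M ≤ L ∨ M ≤ R := by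
      apply le_of_union
      intro x hx
      apply hall x
      · rw [← hMH]
        exact mem_sup_left hx
      · exact (hs M hMs).2.1 x hx
    rw [Finset.mem_insert, Finset.mem_singleton]
    rcases h3 with h3 | h3 | h3
    · exact absurd (eq_of_le_two (hs M hMs).1 hU h3) (hs M hMs).2.2.1
    · left; exact eq_of_le_two (hs M hMs).1 (hs L hL).1 h3
    · right; exact eq_of_le_two (hs M hMs).1 hR2 h3
  omega

lemma inf_ne_bot_of_le [FiniteDimensional ℂ V] {L M H : Submodule ℂ V} (hL : finrank ℂ L = 2)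
    (hM : finrank ℂ M = 2) (hH : finrank ℂ H = 3) (hLH : L ≤ H) (hMH : M ≤ H) : L ⊓ M ≠ ⊥ := by
  intro h
  have h1 := Submodule.finrank_sup_add_finrank_inf_eq L M
  have h2 := Submodule.finrank_mono (sup_le hLH hMH)
  rw [h, finrank_bot, hL, hM] at h1
  omega

/-- **At most 27 lines.** A smooth cubic surface over the complex numbers contains at most 27
lines. -/
theorem card_lines_le [FiniteDimensional ℂ V] (hS : S.Smooth) (hV : finrank ℂ V = 4)
    (s : Finset (Submodule ℂ V)) (hs : ∀ L ∈ s, finrank ℂ L = 2 ∧ S.Iso L) : s.card ≤ 27 := by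
  classical
  rcases s.eq_empty_or_nonempty with rfl | ⟨U, hUs⟩
  · simp
  obtain ⟨hU, hI⟩ := hs U hUs
  -- a plane with three lines
  obtain ⟨q, hq⟩ : ∃ q, q ∉ U := exists_not_mem (by omega)
  obtain ⟨p, hp, hdeg⟩ := exists_deg hS hV hU hI hq
  have hpU : p ∉ U := fun h => hp (mem_sup_left h)
  obtain ⟨L, hL, hLI, hLH, hLU⟩ := exists_line hS hV hU hI hpU hdeg
  have hne : L ≠ U := by
    rintro rfl
    exact hLU le_rfl
  have hH : finrank ℂ ↥(U ⊔ span ℂ {p}) = 3 := by rw [finrank_sup_single hpU, hU]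
  obtain ⟨R, hR, hRI, hRH, hall⟩ := third_line hS hV hU hI hL hLI hne hH le_sup_left hLH
  set H := U ⊔ span ℂ {p} with hHdef
  have hUH : U ≤ H := le_sup_left
  set s' := s ∪ {U, L, R} with hs'
  have hs'l : ∀ M ∈ s', finrank ℂ M = 2 ∧ S.Iso M := by
    intro M hM
    rw [hs', Finset.mem_union, Finset.mem_insert, Finset.mem_insert, Finset.mem_singleton] at hM
    rcases hM with h | rfl | rfl | rfl
    · exact hs M h
    · exact ⟨hU, hI⟩
    · exact ⟨hL, hLI⟩
    · exact ⟨hR, hRI⟩
  let N : Submodule ℂ V → Finset (Submodule ℂ V) := fun M => s'.filter fun X => X ≠ M ∧ X ⊓ M ≠ ⊥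
  have hN : ∀ M : Submodule ℂ V, finrank ℂ M = 2 → S.Iso M → (N M).card ≤ 10 := by
    intro M hM hMI
    apply meet_le_ten hS hV hM hMI
    intro X hX
    obtain ⟨h1, h2, h3⟩ := Finset.mem_filter.mp hX
    exact ⟨(hs'l X h1).1, (hs'l X h1).2, h2, h3⟩
  -- every line meets one of the three
  have hmeet : ∀ X ∈ s', X ⊓ U ≠ ⊥ ∨ X ⊓ L ≠ ⊥ ∨ X ⊓ R ≠ ⊥ := by
    intro X hX
    obtain ⟨hX2, hXI⟩ := hs'l X hX
    have h1 := Submodule.finrank_sup_add_finrank_inf_eq X H
    have h2 := Submodule.finrank_le (X ⊔ H)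
    have h3 : X ⊓ H ≠ ⊥ := by
      intro h
      rw [h, finrank_bot, hX2, hH] at h1
      omega
    obtain ⟨x, hx, hx0⟩ := (Submodule.ne_bot_iff _).mp h3
    rcases hall x hx.2 (hXI x hx.1) with h | h | h
    · left
      exact (Submodule.ne_bot_iff _).mpr ⟨x, ⟨hx.1, h⟩, hx0⟩
    · right; left
      exact (Submodule.ne_bot_iff _).mpr ⟨x, ⟨hx.1, h⟩, hx0⟩
    · right; right
      exact (Submodule.ne_bot_iff _).mpr ⟨x, ⟨hx.1, h⟩, hx0⟩
  have hUs' : U ∈ s' := by simp [hs']
  have hLs' : L ∈ s' := by simp [hs']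
  have hRs' : R ∈ s' := by simp [hs']
  have hss' : s.card ≤ s'.card := Finset.card_le_card Finset.subset_union_left
  by_cases hRR : R = U ∨ R = L
  · -- a double line (does not occur)
    have hsub : s' ⊆ {U, L} ∪ (N U ∪ N L) := by
      intro X hX
      simp only [Finset.mem_union, Finset.mem_insert, Finset.mem_singleton]
      by_cases h1 : X = U
      · exact Or.inl (Or.inl h1)
      by_cases h2 : X = L
      · exact Or.inl (Or.inr h2)
      right
      rcases hmeet X hX with h | h | h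
      · left
        exact Finset.mem_filter.mpr ⟨hX, h1, h⟩
      · right
        exact Finset.mem_filter.mpr ⟨hX, h2, h⟩
      · rcases hRR with hR' | hR'
        · left
          rw [hR'] at h
          exact Finset.mem_filter.mpr ⟨hX, h1, h⟩
        · right
          rw [hR'] at h
          exact Finset.mem_filter.mpr ⟨hX, h2, h⟩
    have h1 := Finset.card_le_card hsub
    have h2 := Finset.card_union_le ({U, L} : Finset (Submodule ℂ V)) (N U ∪ N L)
    have h3 := Finset.card_union_le (N U) (N L)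
    have h4 : ({U, L} : Finset (Submodule ℂ V)).card ≤ 2 := Finset.card_le_two
    have h5 := hN U hU hI
    have h6 := hN L hL hLI
    omega
  · push Not at hRR
    obtain ⟨hRU, hRL⟩ := hRR
    have eight : ∀ A B C : Submodule ℂ V, finrank ℂ A = 2 → S.Iso A → B ∈ s' → C ∈ s' →
        finrank ℂ B = 2 → finrank ℂ C = 2 → A ≤ H → B ≤ H → C ≤ H → B ≠ A → C ≠ A → B ≠ C →
        (N A \ {B, C}).card ≤ 8 := by
      intro A B C hA hAI hB hC hB2 hC2 hAH hBH hCH hBA hCA hBC
      have h1 : ({B, C} : Finset (Submodule ℂ V)) ⊆ N A := by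
        intro X hX
        rw [Finset.mem_insert, Finset.mem_singleton] at hX
        rcases hX with rfl | rfl
        · exact Finset.mem_filter.mpr ⟨hB, hBA, inf_ne_bot_of_le hB2 hA hH hBH hAH⟩
        · exact Finset.mem_filter.mpr ⟨hC, hCA, inf_ne_bot_of_le hC2 hA hH hCH hAH⟩
      rw [Finset.card_sdiff_of_subset h1, Finset.card_pair hBC]
      have := hN A hA hAI
      omega
    have hsub : s' ⊆ {U, L, R} ∪ (N U \ {L, R} ∪ (N L \ {U, R} ∪ N R \ {U, L})) := by
      intro X hX
      simp only [Finset.mem_union, Finset.mem_insert, Finset.mem_singleton, Finset.mem_sdiff]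
      by_cases h1 : X = U
      · exact Or.inl (Or.inl h1)
      by_cases h2 : X = L
      · exact Or.inl (Or.inr (Or.inl h2))
      by_cases h3 : X = R
      · exact Or.inl (Or.inr (Or.inr h3))
      right
      rcases hmeet X hX with h | h | h
      · left
        exact ⟨Finset.mem_filter.mpr ⟨hX, h1, h⟩, by tauto⟩
      · right; left
        exact ⟨Finset.mem_filter.mpr ⟨hX, h2, h⟩, by tauto⟩
      · right; right
        exact ⟨Finset.mem_filter.mpr ⟨hX, h3, h⟩, by tauto⟩
    have h1 := Finset.card_le_card hsub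
    have h2 := Finset.card_union_le ({U, L, R} : Finset (Submodule ℂ V))
      (N U \ {L, R} ∪ (N L \ {U, R} ∪ N R \ {U, L}))
    have h3 := Finset.card_union_le (N U \ {L, R}) (N L \ {U, R} ∪ N R \ {U, L})
    have h4 := Finset.card_union_le (N L \ {U, R}) (N R \ {U, L})
    have h5 : ({U, L, R} : Finset (Submodule ℂ V)).card ≤ 3 := Finset.card_le_three
    have h6 := eight U L R hU hI hLs' hRs' hL hR hUH hLH hRH hne hRU hRL.symm
    have h7 := eight L U R hL hLI hUs' hRs' hU hR hLH hUH hRH hne.symm hRL hRU.symm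
    have h8 := eight R U L hR hRI hUs' hLs' hU hL hRH hUH hLH hRU.symm hRL.symm hne.symm
    omega

end Vale.Agent.P287.R2.H697
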