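import Vale.Agent.P287.R2.H992.Good

/-!
P287 (helper697), row A1 of helper992: if the span of the plane `P` and `w` contains a second
plane of the cubic then all minors of size three of the matrix of the residual quadric vanish.
-/

namespace Vale.Agent.P287.R2.H697.A1

open Module Submodule
open Vale.Agent.P287.R2.H248
open Vale.Agent.P287.R2.H622
open Vale.Agent.P287.R2.H992

variable {V : Type*} [AddCommGroup V] [Module ℂ V] {S : Tri V}

/-- the decomposition of the span of `P` and `w` by the second plane -/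
lemma decomp_sup [FiniteDimensional ℂ V] {P A : Submodule ℂ V} {w : V}
    (hP : finrank ℂ P = 3) (hA : finrank ℂ A = 3) (hle : A ≤ P ⊔ span ℂ {w}) (hne : A ≠ P) :
    ∃ h ∈ P, ∀ x ∈ P ⊔ span ℂ {w}, ∃ a ∈ A, ∃ c : ℂ, x = a + c • h := by
  have h1 : ∃ h ∈ P, h ∉ A := by
    by_contra hcon
    push Not at hcon
    exact hne (Submodule.eq_of_le_of_finrank_eq (fun x hx => hcon x hx) (by rw [hP, hA])).symm
  obtain ⟨h, hhP, hhA⟩ := h1
  refine ⟨h, hhP, ?_⟩
  have h2 : A ⊔ span ℂ {h} ≤ P ⊔ span ℂ {w} := by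
    refine sup_le hle ?_
    rw [span_le]
    intro x hx
    rw [Set.mem_singleton_iff] at hx
    rw [hx]
    exact mem_sup_left hhP
  have h3 : A < A ⊔ span ℂ {h} := by
    refine lt_of_le_of_ne le_sup_left ?_
    intro heq
    apply hhA
    rw [heq]
    exact mem_sup_right (mem_span_singleton_self h)
  have h4 : 4 ≤ finrank ℂ (A ⊔ span ℂ {h} : Submodule ℂ V) := by
    have := finrank_lt_finrank_of_lt h3
    omega
  have h5 : finrank ℂ (P ⊔ span ℂ {w} : Submodule ℂ V) ≤ 4 := by
    have e1 := finrank_add_le_finrank_add_finrank P (span ℂ {w})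
    have e2 : finrank ℂ (span ℂ {w}) ≤ 1 := by
      have := finrank_span_le_card (R := ℂ) ({w} : Set V)
      simpa using this
    omega
  have h6 : A ⊔ span ℂ {h} = P ⊔ span ℂ {w} :=
    Submodule.eq_of_le_of_finrank_le h2 (by omega)
  intro x hx
  rw [← h6, mem_sup] at hx
  obtain ⟨a, ha, y, hy, rfl⟩ := hx
  obtain ⟨c, rfl⟩ := mem_span_singleton.mp hy
  exact ⟨a, ha, c, rfl⟩

/-- ROW A1. -/
theorem row_A1 [FiniteDimensional ℂ V] (_hV : finrank ℂ V = 6) (_hS : S.Smooth)
    {P : Submodule ℂ V} (hP : Pl S P)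
    (e : Fin 3 → V) (he : ∀ i, e i ∈ P) {w : V} (_hw : w ∉ P) (h : Good S P w) :
    Min3 (MM S e w) := by
  obtain ⟨A, hA, hle, hne⟩ := h
  obtain ⟨h, hhP, hdec⟩ := decomp_sup hP.1 hA.1 hle hne
  choose k hk c hc using fun i => hdec (e i) (mem_sup_left (he i))
  obtain ⟨a, ha, d, hd⟩ := hdec w (mem_sup_right (mem_span_singleton_self w))
  have hkP : ∀ i, k i ∈ P := by
    intro i
    have : k i = e i - c i • h := by rw [hc i]; simp
    rw [this]
    exact P.sub_mem (he i) (P.smul_mem _ hhP)
  have haw : a = w - d • h := by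
    conv_rhs => rw [hd]
    simp
  have t1 : ∀ i j, S.T (k i) (k j) w = 0 := by
    intro i j
    have e1 := hA.2.three (hk i) (hk j) ha
    have e2 := hP.2.three (hkP i) (hkP j) hhP
    rw [haw, map_sub, map_smul, smul_eq_mul, e2] at e1
    simpa using e1
  have t2 : ∀ i, S.T (k i) w w = 2 * d * S.T (k i) h w := by
    intro i
    have e1 := hA.2.three (hk i) ha ha
    have e2 := hP.2.three (hkP i) hhP hhP
    rw [haw] at e1
    simp only [map_sub, map_smul, LinearMap.sub_apply, LinearMap.smul_apply, smul_eq_mul, e2,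
      S.s23 (k i) w h] at e1
    linear_combination e1
  have t3 : S.T w w w = 3 * d * S.T h w w - 3 * d ^ 2 * S.T h h w := by
    have e1 := hA.2.three ha ha ha
    have e2 := hP.2.three hhP hhP hhP
    rw [haw] at e1
    simp only [map_sub, map_smul, LinearMap.sub_apply, LinearMap.smul_apply, smul_eq_mul, e2,
      S.s13 w w h, S.s12 w h w, S.s12 w h h, S.s23 h w h] at e1
    linear_combination e1
  have s1 : ∀ i j, S.T (e i) (e j) w =
      c j * S.T (k i) h w + c i * S.T (k j) h w + c i * c j * S.T h h w := by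
    intro i j
    rw [hc i, hc j]
    simp only [map_add, map_smul, LinearMap.add_apply, LinearMap.smul_apply, smul_eq_mul,
      t1 i j, S.s12 h (k j) w]
    ring
  have s2 : ∀ i, S.T (e i) w w = 2 * d * S.T (k i) h w + c i * S.T h w w := by
    intro i
    rw [hc i]
    simp only [map_add, map_smul, LinearMap.add_apply, LinearMap.smul_apply, smul_eq_mul, t2 i]
  have key : ∀ i j : Fin 4, MM S e w i j =
      ![c 0, c 1, c 2, d] j * ![6 * S.T (k 0) h w + 3 * c 0 * S.T h h w,
        6 * S.T (k 1) h w + 3 * c 1 * S.T h h w, 6 * S.T (k 2) h w + 3 * c 2 * S.T h h w,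
        3 * S.T h w w - 3 * d * S.T h h w] i +
      ![c 0, c 1, c 2, d] i * ![6 * S.T (k 0) h w + 3 * c 0 * S.T h h w,
        6 * S.T (k 1) h w + 3 * c 1 * S.T h h w, 6 * S.T (k 2) h w + 3 * c 2 * S.T h h w,
        3 * S.T h w w - 3 * d * S.T h h w] j := by
    intro i j
    fin_cases i <;> fin_cases j <;> simp [MM, s1, s2, t3] <;> ring
  intro f g
  rw [Matrix.det_fin_three]
  simp only [Matrix.submatrix_apply, key]
  ring

end Vale.Agent.P287.R2.H697.A1
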