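import Vale.Agent.P287.R2.H992.Poly

/-!
P287 (helper697), row K of helper992: a chart that contains finitely many directions.
-/

namespace Vale.Agent.P287.R2.H697.K

open Module Submodule MvPolynomial
open Vale.Agent.P287.R2.H248
open Vale.Agent.P287.R2.H622
open Vale.Agent.P287.R2.H992

variable {V : Type*} [AddCommGroup V] [Module ℂ V]

/-- ROW K: a chart that contains finitely many directions. -/
theorem row_K [FiniteDimensional ℂ V] (hV : finrank ℂ V = 6) {P : Submodule ℂ V}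
    (hP : finrank ℂ P = 3) {N : ℕ} (w : Fin N → V) (hw : ∀ i, w i ∉ P) :
    ∃ k : Fin 3 → V, P ⊔ span ℂ (Set.range k) = ⊤ ∧
      ∀ i, ∃ x : Fin 2 → ℂ, P ⊔ span ℂ {w i} = P ⊔ span ℂ {kk k x} := by
  have hq : finrank ℂ (V ⧸ P) = 3 := by
    have := P.finrank_quotient_add_finrank
    omega
  have hv0 : ∃ v0 : V, v0 ∉ P := by
    by_contra hcon
    push Not at hcon
    have : P = ⊤ := (eq_top_iff'.mpr hcon)
    rw [this, finrank_top, hV] at hP
    omega
  obtain ⟨v0, hv0⟩ := hv0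
  obtain ⟨φ, hφ⟩ := Module.exists_dual_forall_apply_ne_zero (K := ℂ) (M := V ⧸ P)
    (fun i : Option (Fin N) => P.mkQ (i.elim v0 w)) (by
      intro i
      rw [Submodule.mkQ_apply, Ne, Submodule.Quotient.mk_eq_zero]
      cases i with
      | none => exact hv0
      | some i => exact hw i)
  have hφ0 : φ (P.mkQ v0) ≠ 0 := hφ none
  have hφw : ∀ i, φ (P.mkQ (w i)) ≠ 0 := fun i => hφ (some i)
  have hne : φ ≠ 0 := by
    rintro rfl
    exact hφ0 rfl
  have hK : finrank ℂ (LinearMap.ker φ) = 2 := by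
    have h1 := LinearMap.finrank_range_add_finrank_ker φ
    have h2 : LinearMap.range φ = ⊤ := LinearMap.range_eq_top.mpr (LinearMap.surjective hne)
    rw [h2, finrank_top, hq, finrank_self] at h1
    omega
  let b : Basis (Fin 2) ℂ (LinearMap.ker φ) := finBasisOfFinrankEq ℂ _ hK
  obtain ⟨k1, hk1⟩ := P.mkQ_surjective (b 0 : V ⧸ P)
  obtain ⟨k2, hk2⟩ := P.mkQ_surjective (b 1 : V ⧸ P)
  let k : Fin 3 → V := ![(φ (P.mkQ v0))⁻¹ • v0, k1, k2]
  have hk0 : φ (P.mkQ (k 0)) = 1 := by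
    show φ (P.mkQ ((φ (P.mkQ v0))⁻¹ • v0)) = 1
    rw [map_smul, map_smul, smul_eq_mul, inv_mul_cancel₀ hφ0]
  -- vectors with value one
  have hone : ∀ v : V, φ (P.mkQ v) = 1 → ∃ x : Fin 2 → ℂ, v - kk k x ∈ P := by
    intro v hv
    have h1 : P.mkQ (v - k 0) ∈ LinearMap.ker φ := by
      rw [LinearMap.mem_ker, map_sub, map_sub, hv, hk0, sub_self]
    refine ⟨b.repr ⟨_, h1⟩, ?_⟩
    have h2 := b.sum_repr ⟨_, h1⟩
    have h3 := congrArg (Subtype.val) h2
    rw [Fin.sum_univ_two] at h3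
    simp only [Submodule.coe_add, Submodule.coe_smul] at h3
    rw [← hk1, ← hk2] at h3
    rw [← Submodule.Quotient.mk_eq_zero, ← Submodule.mkQ_apply]
    have h4 : v - kk k (b.repr ⟨_, h1⟩) = (v - k 0) -
        (b.repr ⟨_, h1⟩ 0 • k1 + b.repr ⟨_, h1⟩ 1 • k2) := by
      simp only [kk, Fin.sum_univ_three, kv, k, Matrix.cons_val_zero, Matrix.cons_val_one,
        Matrix.cons_val]
      module
    rw [h4, map_sub, map_add, map_smul, map_smul, h3, sub_self]
  have hkone : ∀ x : Fin 2 → ℂ, kk k x ∈ span ℂ (Set.range k) := by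
    intro x
    exact Submodule.sum_mem _ fun l _ => Submodule.smul_mem _ _ (subset_span ⟨l, rfl⟩)
  have hval : ∀ v : V, φ (P.mkQ v) = 1 → v ∈ P ⊔ span ℂ (Set.range k) := by
    intro v hv
    obtain ⟨x, hx⟩ := hone v hv
    have h1 : v = (v - kk k x) + kk k x := by abel
    rw [h1]
    exact Submodule.add_mem _ (mem_sup_left hx) (mem_sup_right (hkone x))
  refine ⟨k, ?_, ?_⟩
  · rw [eq_top_iff']
    intro v
    have hk0mem : k 0 ∈ P ⊔ span ℂ (Set.range k) := mem_sup_right (subset_span ⟨0, rfl⟩)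
    have h1 : v = (v + (1 - φ (P.mkQ v)) • k 0) - (1 - φ (P.mkQ v)) • k 0 := by abel
    rw [h1]
    refine Submodule.sub_mem _ (hval _ ?_) (Submodule.smul_mem _ _ hk0mem)
    rw [map_add, map_add, map_smul, map_smul, hk0, smul_eq_mul]
    ring
  · intro i
    have h1 : φ (P.mkQ ((φ (P.mkQ (w i)))⁻¹ • w i)) = 1 := by
      rw [map_smul, map_smul, smul_eq_mul, inv_mul_cancel₀ (hφw i)]
    obtain ⟨x, hx⟩ := hone _ h1
    refine ⟨x, ?_⟩
    have hw1 : w i = φ (P.mkQ (w i)) • ((φ (P.mkQ (w i)))⁻¹ • w i) := by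
      rw [smul_smul, mul_inv_cancel₀ (hφw i), one_smul]
    have hmem1 : w i ∈ P ⊔ span ℂ {kk k x} := by
      have h2 : w i = φ (P.mkQ (w i)) • (((φ (P.mkQ (w i)))⁻¹ • w i - kk k x) + kk k x) := by
        rw [sub_add_cancel]
        exact hw1
      rw [h2]
      exact Submodule.smul_mem _ _ (Submodule.add_mem _ (mem_sup_left hx)
        (mem_sup_right (mem_span_singleton_self _)))
    have hmem2 : kk k x ∈ P ⊔ span ℂ {w i} := by
      have h2 : kk k x = (φ (P.mkQ (w i)))⁻¹ • w i - ((φ (P.mkQ (w i)))⁻¹ • w i - kk k x) := by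
        abel
      rw [h2]
      exact Submodule.sub_mem _ (Submodule.smul_mem _ _
        (mem_sup_right (mem_span_singleton_self _))) (mem_sup_left hx)
    apply le_antisymm
    · refine sup_le le_sup_left ?_
      rw [span_le, Set.singleton_subset_iff]
      exact hmem1
    · refine sup_le le_sup_left ?_
      rw [span_le, Set.singleton_subset_iff]
      exact hmem2

end Vale.Agent.P287.R2.H697.K
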