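import Vale.Agent.P287.R2.H992.Poly

/-!
P287 (helper697), rows M and L of helper992: different points of the chart are different
directions, and the points of a line of the chart are the directions of a plane.
-/

namespace Vale.Agent.P287.R2.H697.ML

open Module Submodule MvPolynomial
open Vale.Agent.P287.R2.H248
open Vale.Agent.P287.R2.H622
open Vale.Agent.P287.R2.H992

variable {V : Type*} [AddCommGroup V] [Module ℂ V]

/-- the vectors `k` are independent modulo `P` -/
lemma indep [FiniteDimensional ℂ V] (hV : finrank ℂ V = 6) {P : Submodule ℂ V}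
    (hP : finrank ℂ P = 3) (k : Fin 3 → V) (hk : P ⊔ span ℂ (Set.range k) = ⊤)
    (c : Fin 3 → ℂ) (hc : ∑ l, c l • k l ∈ P) : ∀ l, c l = 0 := by
  have hq : finrank ℂ (V ⧸ P) = 3 := by
    have := P.finrank_quotient_add_finrank
    omega
  have hspan : span ℂ (Set.range (P.mkQ ∘ k)) = ⊤ := by
    rw [Set.range_comp, ← Submodule.map_span]
    have h1 : Submodule.map P.mkQ (P ⊔ span ℂ (Set.range k)) = ⊤ := by
      rw [hk, Submodule.map_top, Submodule.range_mkQ]
    rw [Submodule.map_sup, Submodule.mkQ_map_self, bot_sup_eq] at h1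
    exact h1
  have hli : LinearIndependent ℂ (P.mkQ ∘ k) :=
    linearIndependent_of_top_le_span_of_card_eq_finrank hspan.ge (by simp [hq])
  rw [Fintype.linearIndependent_iff] at hli
  apply hli c
  have h2 : P.mkQ (∑ l, c l • k l) = 0 := by
    rw [Submodule.mkQ_apply, Submodule.Quotient.mk_eq_zero]
    exact hc
  rw [map_sum] at h2
  simpa using h2

/-- ROW M: points of the chart are outside `P` and different points are different directions. -/
theorem row_M [FiniteDimensional ℂ V] (hV : finrank ℂ V = 6) {P : Submodule ℂ V}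
    (hP : finrank ℂ P = 3) (k : Fin 3 → V) (hk : P ⊔ span ℂ (Set.range k) = ⊤) :
    (∀ x, kk k x ∉ P) ∧ ∀ x y, x ≠ y → kk k y ∉ P ⊔ span ℂ {kk k x} := by
  constructor
  · intro x hx
    have h1 := indep hV hP k hk (kv x) hx 0
    simp [kv] at h1
  · intro x y hxy hmem
    rw [mem_sup] at hmem
    obtain ⟨p, hp, z, hz, hpz⟩ := hmem
    obtain ⟨t, rfl⟩ := mem_span_singleton.mp hz
    have h1 : ∑ l, (kv y l - t * kv x l) • k l ∈ P := by
      have h2 : ∑ l, (kv y l - t * kv x l) • k l = kk k y - t • kk k x := by
        simp only [kk, sub_smul, Finset.sum_sub_distrib, mul_smul, Finset.smul_sum]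
      rw [h2, ← hpz]
      simpa using hp
    have h2 := indep hV hP k hk _ h1
    have h3 := h2 0
    have h4 := h2 1
    have h5 := h2 2
    simp only [kv, Matrix.cons_val_zero, Matrix.cons_val_one, Matrix.cons_val] at h3 h4 h5
    have ht : t = 1 := by linear_combination -h3
    apply hxy
    funext i
    fin_cases i
    · show x 0 = y 0
      rw [ht] at h4
      linear_combination -h4
    · show x 1 = y 1
      rw [ht] at h5
      linear_combination -h5

lemma kk_line' (k : Fin 3 → V) (x y : Fin 2 → ℂ) (t : ℂ) :
    kk k (x + t • (y - x)) = (1 - t) • kk k x + t • kk k y := by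
  simp only [kk, Fin.sum_univ_three, kv, Matrix.cons_val_zero, Matrix.cons_val_one,
    Matrix.cons_val, Pi.add_apply, Pi.smul_apply, Pi.sub_apply, smul_eq_mul]
  module

/-- polynomials of degree at most one are affine -/
lemma affine (l : MvPolynomial (Fin 2) ℂ) (hd : l.totalDegree ≤ 1) :
    ∃ a b c : ℂ, ∀ x : Fin 2 → ℂ, eval x l = a + b * x 0 + c * x 1 := by
  classical
  refine ⟨coeff 0 l, coeff (Finsupp.single 0 1) l, coeff (Finsupp.single 1 1) l, fun x => ?_⟩
  have hs : l.support ⊆ ({0, Finsupp.single 0 1, Finsupp.single 1 1} : Finset (Fin 2 →₀ ℕ)) := by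
    intro d hd'
    have h1 : d.degree ≤ 1 := by
      have := le_totalDegree hd'
      have h2 : (d.sum fun _ e => e) = d.degree := by
        rw [Finsupp.degree_eq_sum, Finsupp.sum_fintype _ _ (fun _ => rfl)]
      omega
    have h2 : d 0 + d 1 ≤ 1 := by
      rw [Finsupp.degree_eq_sum, Fin.sum_univ_two] at h1
      exact h1
    simp only [Finset.mem_insert, Finset.mem_singleton]
    rcases Nat.eq_zero_or_pos (d 0) with h0 | h0
    · rcases Nat.eq_zero_or_pos (d 1) with h3 | h3
      · left
        ext i
        fin_cases i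
        · exact h0
        · exact h3
      · right; right
        ext i
        fin_cases i
        · simpa using h0
        · simp; omega
    · right; left
      ext i
      fin_cases i
      · simp; omega
      · simp; omega
  rw [eval_eq', Finset.sum_subset hs (by
    intro d _ hd'
    rw [MvPolynomial.notMem_support_iff] at hd'
    rw [hd', zero_mul])]
  have h01 : (0 : Fin 2 →₀ ℕ) ≠ Finsupp.single 0 1 := by
    intro h
    have := DFunLike.congr_fun h 0
    simp at this
  have h02 : (0 : Fin 2 →₀ ℕ) ≠ Finsupp.single 1 1 := by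
    intro h
    have := DFunLike.congr_fun h 1
    simp at this
  have h12 : (Finsupp.single 0 1 : Fin 2 →₀ ℕ) ≠ Finsupp.single 1 1 := by
    intro h
    have := DFunLike.congr_fun h 1
    simp at this
  rw [Finset.sum_insert (by simp [h01, h02]), Finset.sum_insert (by simp [h12]),
    Finset.sum_singleton]
  simp [Finsupp.single_apply]
  ring

/-- ROW L: four points of the chart on a line lie in a plane of directions. -/
theorem row_L [FiniteDimensional ℂ V] (hV : finrank ℂ V = 6) {P : Submodule ℂ V}
    (hP : finrank ℂ P = 3)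
    (k : Fin 3 → V) (hk : P ⊔ span ℂ (Set.range k) = ⊤) (l : MvPolynomial (Fin 2) ℂ)
    (hl : l ≠ 0) (hd : l.totalDegree ≤ 1) (x : Fin 4 → Fin 2 → ℂ) (hx : Function.Injective x)
    (hxl : ∀ i, eval (x i) l = 0) :
    ∃ D : Submodule ℂ V, finrank ℂ D = 2 ∧ Disjoint P D ∧ (∀ i, kk k (x i) ∈ D) ∧
      (∀ i, kk k (x i) ≠ 0) ∧ ∀ i j, i ≠ j → kk k (x j) ∉ span ℂ {kk k (x i)} := by
  obtain ⟨hM1, hM2⟩ := row_M hV hP k hk
  have h01 : x 0 ≠ x 1 := fun h => by simpa using hx h
  have hcomb : ∀ a b : ℂ, a • kk k (x 0) + b • kk k (x 1) ∈ P → a = 0 ∧ b = 0 := by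
    intro a b hab
    have h1 : ∑ l, (a * kv (x 0) l + b * kv (x 1) l) • k l ∈ P := by
      have h2 : ∑ l, (a * kv (x 0) l + b * kv (x 1) l) • k l =
          a • kk k (x 0) + b • kk k (x 1) := by
        simp only [kk, add_smul, Finset.sum_add_distrib, mul_smul, Finset.smul_sum]
      rw [h2]
      exact hab
    have h2 := indep hV hP k hk _ h1
    have h3 := h2 0
    have h4 := h2 1
    have h5 := h2 2
    simp only [kv, Matrix.cons_val_zero, Matrix.cons_val_one, Matrix.cons_val] at h3 h4 h5
    have hb : b = -a := by linear_combination h3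
    have ha : a = 0 := by
      by_contra ha
      apply h01
      funext i
      fin_cases i
      · show x 0 0 = x 1 0
        apply mul_left_cancel₀ ha
        rw [hb] at h4
        linear_combination h4
      · show x 0 1 = x 1 1
        apply mul_left_cancel₀ ha
        rw [hb] at h5
        linear_combination h5
    exact ⟨ha, by rw [hb, ha, neg_zero]⟩
  refine ⟨span ℂ {kk k (x 0), kk k (x 1)}, ?_, ?_, ?_, ?_, ?_⟩
  · have hli : LinearIndependent ℂ ![kk k (x 0), kk k (x 1)] := by
      rw [LinearIndependent.pair_iff]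
      intro a b hab
      exact hcomb a b (by rw [hab]; exact P.zero_mem)
    have h1 := finrank_span_eq_card hli
    rw [Matrix.range_cons, Matrix.range_cons, Matrix.range_empty, Set.union_empty,
      Set.singleton_union] at h1
    simpa using h1
  · rw [Submodule.disjoint_def]
    intro v hvP hvD
    rw [mem_span_pair] at hvD
    obtain ⟨a, b, rfl⟩ := hvD
    obtain ⟨ha, hb⟩ := hcomb a b hvP
    rw [ha, hb]
    simp
  · intro i
    obtain ⟨a, b, c, habc⟩ := affine l hd
    have hbc : b ≠ 0 ∨ c ≠ 0 := by
      by_contra hcon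
      push Not at hcon
      obtain ⟨hb, hc⟩ := hcon
      have h0 := hxl 0
      rw [habc, hb, hc] at h0
      apply hl
      apply MvPolynomial.funext
      intro y
      rw [habc, hb, hc, map_zero]
      linear_combination h0
    have h0 := hxl 0
    have h1 := hxl 1
    have h2 := hxl i
    rw [habc] at h0 h1 h2
    have hline : ∃ t : ℂ, x i = x 0 + t • (x 1 - x 0) := by
      have e1 : b * (x 1 0 - x 0 0) + c * (x 1 1 - x 0 1) = 0 := by linear_combination h1 - h0
      have e2 : b * (x i 0 - x 0 0) + c * (x i 1 - x 0 1) = 0 := by linear_combination h2 - h0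
      rcases hbc with hb | hc
      · -- first coordinate is determined by the second
        have hne : x 1 1 - x 0 1 ≠ 0 := by
          intro h
          rw [h, mul_zero, add_zero] at e1
          have e3 := (mul_eq_zero.mp e1).resolve_left hb
          apply h01
          funext j
          fin_cases j
          · exact (sub_eq_zero.mp e3).symm
          · exact (sub_eq_zero.mp h).symm
        refine ⟨(x i 1 - x 0 1) / (x 1 1 - x 0 1), ?_⟩
        funext j
        fin_cases j
        · show x i 0 = x 0 0 + (x i 1 - x 0 1) / (x 1 1 - x 0 1) * (x 1 0 - x 0 0)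
          field_simp
          apply mul_left_cancel₀ hb
          linear_combination (x 1 1 - x 0 1) * e2 - (x i 1 - x 0 1) * e1
        · show x i 1 = x 0 1 + (x i 1 - x 0 1) / (x 1 1 - x 0 1) * (x 1 1 - x 0 1)
          field_simp
          ring
      · have hne : x 1 0 - x 0 0 ≠ 0 := by
          intro h
          rw [h, mul_zero, zero_add] at e1
          have e3 := (mul_eq_zero.mp e1).resolve_left hc
          apply h01
          funext j
          fin_cases j
          · exact (sub_eq_zero.mp h).symm
          · exact (sub_eq_zero.mp e3).symm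
        refine ⟨(x i 0 - x 0 0) / (x 1 0 - x 0 0), ?_⟩
        funext j
        fin_cases j
        · show x i 0 = x 0 0 + (x i 0 - x 0 0) / (x 1 0 - x 0 0) * (x 1 0 - x 0 0)
          field_simp
          ring
        · show x i 1 = x 0 1 + (x i 0 - x 0 0) / (x 1 0 - x 0 0) * (x 1 1 - x 0 1)
          field_simp
          apply mul_left_cancel₀ hc
          linear_combination (x 1 0 - x 0 0) * e2 - (x i 0 - x 0 0) * e1
    obtain ⟨t, ht⟩ := hline
    rw [ht, kk_line']
    exact Submodule.add_mem _ (Submodule.smul_mem _ _ (subset_span (by simp)))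
      (Submodule.smul_mem _ _ (subset_span (by simp)))
  · intro i h
    apply hM1 (x i)
    rw [h]
    exact P.zero_mem
  · intro i j hij h
    exact hM2 (x i) (x j) (fun h' => hij (hx h')) (mem_sup_right h)

end Vale.Agent.P287.R2.H697.ML
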