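import Vale.Agent.P287.R2.H697.Lines27d

/-!
P287: at most 27 planes of a smooth cubic fourfold pass through an Eckardt point.
-/

namespace Vale.Agent.P287.R2.H697

open Module Submodule Vale.Agent.P287.R2.H248 Vale.Agent.P287.R2.H248.Tri

variable {V : Type*} [AddCommGroup V] [Module ℂ V] {S : Tri V}

/-- At most 27 planes pass through an Eckardt point. -/
theorem card_planes_through [FiniteDimensional ℂ V] (hS : S.Smooth) (hV : finrank ℂ V = 6)
    {p : V} (hE : S.Eckardt p) (s : Finset (Submodule ℂ V))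
    (hs : ∀ P ∈ s, finrank ℂ P = 3 ∧ S.Iso P ∧ p ∈ P) : s.card ≤ 27 := by
  classical
  have hE' := hE
  obtain ⟨hp0, hpp, hcone⟩ := hE'
  set H := LinearMap.ker (S.T p p) with hH
  have hpH : p ∈ H := hpp
  have hH5 : finrank ℂ H = 5 := by
    have h0 : S.T p p ≠ 0 := by
      intro h0
      apply hp0
      apply hS
      intro w
      rw [h0]
      rfl
    have h1 : finrank ℂ ↥H + 1 = finrank ℂ V :=
      Module.Dual.finrank_ker_add_one_of_ne_zero (f := S.T p p) h0
    omega
  obtain ⟨C, hC⟩ := Submodule.exists_isCompl (span ℂ {p})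
  set W := C ⊓ H with hW
  have hsp : span ℂ {p} ≤ H := span_le.mpr (Set.singleton_subset_iff.mpr hpH)
  have hWp : W ⊔ span ℂ {p} = H := by
    rw [hW, sup_comm, ← sup_inf_assoc_of_le _ hsp, hC.sup_eq_top, top_inf_eq]
  have hWd : Disjoint W (span ℂ {p}) := hC.symm.disjoint.mono_left inf_le_left
  have hW4 : finrank ℂ W = 4 := by
    have h1 := Submodule.finrank_sup_add_finrank_inf_eq W (span ℂ {p})
    rw [hWp, hWd.eq_bot, finrank_bot, finrank_span_singleton hp0, hH5] at h1
    omega
  have hsm : (S.comap W.subtype).Smooth := base_smooth hS hE hWp hWd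
  -- a plane through the point is the join of the point and a line of the base
  have hjoin : ∀ P ∈ s, (P ⊓ W) ⊔ span ℂ {p} = P := by
    intro P hP
    obtain ⟨h3, hPI, hpP⟩ := hs P hP
    have hspP : span ℂ {p} ≤ P := span_le.mpr (Set.singleton_subset_iff.mpr hpP)
    have hPH : P ≤ H := fun x hx => hPI.two hpP hx
    apply le_antisymm (sup_le inf_le_left hspP)
    intro x hx
    have hxH := hPH hx
    rw [← hWp] at hxH
    obtain ⟨w, hw, z, hz, rfl⟩ := mem_sup.mp hxH
    apply Submodule.add_mem_sup _ hz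
    refine ⟨?_, hw⟩
    have h4 := P.sub_mem hx (hspP hz)
    rwa [add_sub_cancel_right] at h4
  have hfr : ∀ P ∈ s, finrank ℂ ↥(P ⊓ W) = 2 := by
    intro P hP
    have hpW : p ∉ P ⊓ W := by
      intro h
      exact hp0 ((Submodule.disjoint_def.mp hWd) p h.2 (mem_span_singleton_self p))
    have h1 := finrank_sup_single hpW
    rw [hjoin P hP, (hs P hP).1] at h1
    omega
  have hinj : Set.InjOn (fun P : Submodule ℂ V => (P ⊓ W).comap W.subtype) s := by
    intro P hP Q hQ h
    have h1 : P ⊓ W = Q ⊓ W := by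
      have h2 := congrArg (Submodule.map W.subtype) h
      simp only at h2
      rwa [Submodule.map_comap_subtype, Submodule.map_comap_subtype,
        inf_eq_right.mpr (inf_le_right : P ⊓ W ≤ W),
        inf_eq_right.mpr (inf_le_right : Q ⊓ W ≤ W)] at h2
    rw [← hjoin P hP, ← hjoin Q hQ, h1]
  rw [← Finset.card_image_of_injOn hinj]
  apply card_lines_le hsm hW4
  intro L hL
  obtain ⟨P, hP, rfl⟩ := Finset.mem_image.mp hL
  constructor
  · rw [← hfr P hP]
    exact (Submodule.comapSubtypeEquivOfLe inf_le_right).finrank_eq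
  · intro u hu
    exact (hs P hP).2.1 _ hu.1

/-- Among 28 planes of a smooth cubic fourfold with an Eckardt point there is one that does not
contain the point. -/
theorem exists_plane_off [FiniteDimensional ℂ V] (hS : S.Smooth) (hV : finrank ℂ V = 6)
    {p : V} (hE : S.Eckardt p) (s : Finset (Submodule ℂ V)) (h28 : 28 ≤ s.card)
    (hs : ∀ P ∈ s, finrank ℂ P = 3 ∧ S.Iso P) : ∃ P ∈ s, p ∉ P := by
  by_contra hcon
  push Not at hcon
  have := card_planes_through hS hV hE s fun P hP => ⟨(hs P hP).1, (hs P hP).2, hcon P hP⟩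
  omega

/-- A smooth cubic fourfold with an Eckardt point and at least 28 planes contains two disjoint
planes. -/
theorem eckardt_many_tri [FiniteDimensional ℂ V] (hS : S.Smooth) (hV : finrank ℂ V = 6)
    {p : V} (hE : S.Eckardt p) (s : Finset (Submodule ℂ V)) (h28 : 28 ≤ s.card)
    (hs : ∀ P ∈ s, finrank ℂ P = 3 ∧ S.Iso P) :
    ∃ P Q : Submodule ℂ V, (finrank ℂ P = 3 ∧ S.Iso P) ∧ (finrank ℂ Q = 3 ∧ S.Iso Q) ∧
      Disjoint P Q := by
  obtain ⟨P, hP, hpP⟩ := exists_plane_off hS hV hE s h28 hs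
  obtain ⟨Q, h1, h2, -, h4⟩ := exists_disjoint_plane hS hV hE (hs P hP).1 (hs P hP).2 hpP
  exact ⟨P, Q, hs P hP, ⟨h1, h2⟩, h4⟩

end Vale.Agent.P287.R2.H697
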